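import Vale.Agent.Thorp.Reg

/-!
# P162, Part C: `d + 1` Thorp shuffles are one pass over the cube, and `TV ≤ L²`
-/

open scoped InnerProductSpace
open Equiv

namespace Vale.Agent.Thorp

section Mat

variable {V : Type*} [NormedAddCommGroup V] [InnerProductSpace ℝ V]

/-- Permutations moving every point `x` to `x` or to `τ x`. -/
def GT {X : Type*} [Fintype X] [DecidableEq X] (τ : X → X) : Finset (Perm X) :=
  Finset.univ.filter fun g => ∀ x, g x = x ∨ g x = τ x

theorem mem_GT {X : Type*} [Fintype X] [DecidableEq X] {τ : X → X} {g : Perm X} :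
    g ∈ GT τ ↔ ∀ x, g x = x ∨ g x = τ x := by
  simp [GT]

/-- Average over `GT τ`. -/
noncomputable def mat {X : Type*} [Fintype X] [DecidableEq X] (ρ : Perm X →* (V →L[ℝ] V))
    (τ : X → X) : V →L[ℝ] V :=
  ((GT τ).card : ℝ)⁻¹ • ∑ g ∈ GT τ, ρ g

theorem flipPerm_injective {ι : Type*} :
    Function.Injective (flipPerm : (ι → Bool) → Perm (Bool × ι)) := by
  intro c c' h
  funext i
  have := congrArg (fun g : Perm (Bool × ι) => (g (false, i)).1) h
  simpa [flipPerm] using this

theorem GT_flip {ι : Type*} [Fintype ι] [DecidableEq ι] :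
    GT (fun p : Bool × ι => (!p.1, p.2)) =
      Finset.univ.map ⟨flipPerm, flipPerm_injective⟩ := by
  ext g
  rw [mem_GT]
  simp only [Finset.mem_map, Finset.mem_univ, true_and, Function.Embedding.coeFn_mk]
  constructor
  · intro h
    refine ⟨fun i => (g (false, i)).1, ?_⟩
    ext1 p
    obtain ⟨b, i⟩ := p
    have h1 := h (false, i)
    have h2 := h (true, i)
    have hne : g (false, i) ≠ g (true, i) := by
      intro he
      have := g.injective he
      simp at this
    simp only [flipPerm, Equiv.coe_fn_mk]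
    simp only [Bool.not_false, Bool.not_true] at h1 h2
    rcases h1 with h1 | h1 <;> rcases h2 with h2 | h2 <;> cases b <;> simp_all
  · rintro ⟨c, rfl⟩ ⟨b, i⟩
    simp only [flipPerm, Equiv.coe_fn_mk]
    cases b <;> cases c i <;> simp

theorem avg_eq_mat {ι : Type*} [Fintype ι] [DecidableEq ι]
    (ρ : Perm (Bool × ι) →* (V →L[ℝ] V)) :
    avg ρ = mat ρ (fun p : Bool × ι => (!p.1, p.2)) := by
  unfold avg mat
  rw [GT_flip, Finset.sum_map, Finset.card_map]
  simp

theorem GT_conj {X Y : Type*} [Fintype X] [DecidableEq X] [Fintype Y] [DecidableEq Y]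
    (e : X ≃ Y) (τ : X → X) :
    GT (fun y => e (τ (e.symm y))) = (GT τ).map e.permCongr.toEmbedding := by
  ext g
  rw [mem_GT]
  simp only [Finset.mem_map, Equiv.coe_toEmbedding]
  constructor
  · intro h
    refine ⟨e.permCongr.symm g, ?_, Equiv.apply_symm_apply _ _⟩
    rw [mem_GT]
    intro x
    have := h (e x)
    simp only [Equiv.symm_apply_apply] at this
    rcases this with h1 | h1
    · left
      simp [h1]
    · right
      simp [h1]
  · rintro ⟨s, hs, rfl⟩ y
    rw [mem_GT] at hs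
    rcases hs (e.symm y) with h1 | h1
    · left
      simp [Equiv.permCongr_apply, h1]
    · right
      simp [Equiv.permCongr_apply, h1]

theorem mat_conj {X Y : Type*} [Fintype X] [DecidableEq X] [Fintype Y] [DecidableEq Y]
    (e : X ≃ Y) (ρ : Perm Y →* (V →L[ℝ] V)) (τ : X → X) :
    mat (ρ.comp e.permCongrHom.toMonoidHom) τ = mat ρ (fun y => e (τ (e.symm y))) := by
  unfold mat
  rw [GT_conj, Finset.sum_map, Finset.card_map]
  rfl

/-- `mat ρ τ` conjugated by a permutation. -/
theorem mat_mul_perm {X : Type*} [Fintype X] [DecidableEq X] (ρ : Perm X →* (V →L[ℝ] V))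
    (τ : X → X) (r : Perm X) :
    mat ρ τ * ρ r = ρ r * mat ρ (fun x => r⁻¹ (τ (r x))) := by
  have h : mat (ρ.comp (r⁻¹ : Perm X).permCongrHom.toMonoidHom) τ =
      mat ρ (fun x => r⁻¹ (τ (r x))) := by
    rw [mat_conj]
    rfl
  rw [← h]
  unfold mat
  rw [smul_mul_assoc, mul_smul_comm, Finset.sum_mul, Finset.mul_sum]
  congr 1
  refine Finset.sum_congr rfl fun g _ => ?_
  have : (r⁻¹ : Perm X).permCongrHom.toMonoidHom g = r⁻¹ * g * r := by
    ext x
    simp [Equiv.permCongrHom]
  rw [MonoidHom.comp_apply, this, ← map_mul, ← map_mul]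
  congr 1
  group

theorem halfC_commute {ι : Type*} (g g' : Perm ι) :
    half true g' * half false g = half false g * half true g' := by
  ext1 p
  obtain ⟨b, i⟩ := p
  simp only [half, MonoidHom.coe_mk, OneHom.coe_mk, Equiv.Perm.mul_apply, Equiv.coe_fn_mk]
  cases b <;> simp

/-- The map `half false g * half true g'` for pairs. -/
def halves {ι : Type*} (q : Perm ι × Perm ι) : Perm (Bool × ι) :=
  half false q.1 * half true q.2

theorem halves_false {ι : Type*} (q : Perm ι × Perm ι) (i : ι) :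
    halves q (false, i) = (false, q.1 i) := by
  simp [halves, half]

theorem halves_true {ι : Type*} (q : Perm ι × Perm ι) (i : ι) :
    halves q (true, i) = (true, q.2 i) := by
  simp [halves, half]

theorem halves_injective {ι : Type*} :
    Function.Injective (halves : Perm ι × Perm ι → Perm (Bool × ι)) := by
  rintro ⟨a, b⟩ ⟨a', b'⟩ h
  have h1 : a = a' := by
    ext1 i
    have := congrArg (fun g : Perm (Bool × ι) => g (false, i)) h
    simp only [halves_false, Prod.mk.injEq, true_and] at this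
    exact this
  have h2 : b = b' := by
    ext1 i
    have := congrArg (fun g : Perm (Bool × ι) => g (true, i)) h
    simp only [halves_true, Prod.mk.injEq, true_and] at this
    exact this
  rw [h1, h2]

theorem GT_halves {ι : Type*} [Fintype ι] [DecidableEq ι] (τ : ι → ι) :
    GT (fun p : Bool × ι => (p.1, τ p.2)) =
      (GT τ ×ˢ GT τ).map ⟨halves, halves_injective⟩ := by
  ext g
  rw [mem_GT]
  simp only [Finset.mem_map, Finset.mem_product, Function.Embedding.coeFn_mk]
  constructor
  · intro h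
    have hf : ∀ p : Bool × ι, (g p).1 = p.1 := by
      intro p
      rcases h p with h1 | h1 <;> rw [h1]
    have hb : ∀ b : Bool, Function.Injective fun i => (g (b, i)).2 := by
      intro b i j hij
      have : g (b, i) = g (b, j) := by
        refine Prod.ext ?_ hij
        rw [hf, hf]
      have := g.injective this
      simpa using this
    refine ⟨(Equiv.ofBijective _ (Finite.injective_iff_bijective.1 (hb false)),
      Equiv.ofBijective _ (Finite.injective_iff_bijective.1 (hb true))), ⟨?_, ?_⟩, ?_⟩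
    · rw [mem_GT]
      intro i
      rcases h (false, i) with h1 | h1 <;> simp [h1]
    · rw [mem_GT]
      intro i
      rcases h (true, i) with h1 | h1 <;> simp [h1]
    · ext1 p
      obtain ⟨b, i⟩ := p
      cases b
      · rw [halves_false]
        refine Prod.ext ?_ ?_
        · rw [hf]
        · simp
      · rw [halves_true]
        refine Prod.ext ?_ ?_
        · rw [hf]
        · simp
  · rintro ⟨⟨a, b⟩, ⟨ha, hb⟩, rfl⟩ ⟨c, i⟩
    simp only [mem_GT] at ha hb
    cases c
    · rw [halves_false]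
      rcases ha i with h1 | h1 <;> simp [h1]
    · rw [halves_true]
      rcases hb i with h1 | h1 <;> simp [h1]

theorem mat_halves {ι : Type*} [Fintype ι] [DecidableEq ι] (ρ : Perm (Bool × ι) →* (V →L[ℝ] V))
    (τ : ι → ι) :
    mat (ρ.comp (half false)) τ * mat (ρ.comp (half true)) τ =
      mat ρ (fun p : Bool × ι => (p.1, τ p.2)) := by
  unfold mat
  rw [GT_halves, Finset.sum_map, Finset.card_map, Finset.card_product, Finset.sum_product,
    smul_mul_smul_comm, Finset.sum_mul_sum]
  congr 1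
  · push_cast
    rw [mul_inv]
  · refine Finset.sum_congr rfl fun a _ => Finset.sum_congr rfl fun b _ => ?_
    simp [halves]

theorem mat_halves_commute {ι : Type*} [Fintype ι] [DecidableEq ι]
    (ρ : Perm (Bool × ι) →* (V →L[ℝ] V)) (τ τ' : ι → ι) :
    mat (ρ.comp (half true)) τ' * mat (ρ.comp (half false)) τ =
      mat (ρ.comp (half false)) τ * mat (ρ.comp (half true)) τ' := by
  unfold mat
  rw [smul_mul_smul_comm, smul_mul_smul_comm, Finset.sum_mul_sum, Finset.sum_mul_sum,
    Finset.sum_comm, mul_comm]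
  congr 1
  refine Finset.sum_congr rfl fun a _ => Finset.sum_congr rfl fun b _ => ?_
  simp only [MonoidHom.comp_apply]
  rw [← map_mul, ← map_mul, halfC_commute]

/-- Product of the averages `mat ρ (τ j)`, `j < k`, the first acting first. -/
noncomputable def prodM {X : Type*} [Fintype X] [DecidableEq X] (ρ : Perm X →* (V →L[ℝ] V))
    (τ : ℕ → X → X) : ℕ → (V →L[ℝ] V)
  | 0 => 1
  | k + 1 => mat ρ (τ k) * prodM ρ τ k

theorem prodM_succ' {X : Type*} [Fintype X] [DecidableEq X] (ρ : Perm X →* (V →L[ℝ] V))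
    (τ : ℕ → X → X) (k : ℕ) :
    prodM ρ τ (k + 1) = prodM ρ (fun j => τ (j + 1)) k * mat ρ (τ 0) := by
  induction k with
  | zero => simp [prodM]
  | succ k ih => rw [prodM, ih, prodM, mul_assoc]

theorem prodM_halves {ι : Type*} [Fintype ι] [DecidableEq ι]
    (ρ : Perm (Bool × ι) →* (V →L[ℝ] V)) (τ : ℕ → ι → ι) (k : ℕ) :
    prodM (ρ.comp (half false)) τ k * prodM (ρ.comp (half true)) τ k =
      prodM ρ (fun j p => (p.1, τ j p.2)) k := by
  have hc : ∀ (τ' : ι → ι) (k : ℕ),
      mat (ρ.comp (half true)) τ' * prodM (ρ.comp (half false)) τ k =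
        prodM (ρ.comp (half false)) τ k * mat (ρ.comp (half true)) τ' := by
    intro τ' k
    induction k with
    | zero => simp [prodM]
    | succ k ih => rw [prodM, ← mul_assoc, mat_halves_commute, mul_assoc, ih, mul_assoc]
  induction k with
  | zero => simp [prodM]
  | succ k ih =>
    rw [prodM, prodM, prodM, ← ih, ← mat_halves]
    simp only [mul_assoc]
    rw [← mul_assoc (prodM (ρ.comp (half false)) τ k), ← hc]
    simp only [mul_assoc]

/-- Powers of a rotation followed by an average. -/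
theorem pow_rot {X : Type*} [Fintype X] [DecidableEq X] (ρ : Perm X →* (V →L[ℝ] V))
    (r : Perm X) (τ : X → X) (k : ℕ) :
    (ρ r * mat ρ τ) ^ k = ρ (r ^ k) * prodM ρ (fun j x => (r ^ j)⁻¹ (τ ((r ^ j) x))) k := by
  induction k with
  | zero => simp [prodM]
  | succ k ih =>
    rw [pow_succ', ih, prodM, ← mul_assoc, mul_assoc (ρ r), mat_mul_perm, pow_succ', map_mul]
    simp only [mul_assoc]

theorem prodM_congr {X : Type*} [Fintype X] [DecidableEq X] (ρ : Perm X →* (V →L[ℝ] V))
    {τ τ' : ℕ → X → X} {k : ℕ} (h : ∀ j < k, τ j = τ' j) : prodM ρ τ k = prodM ρ τ' k := by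
  induction k with
  | zero => rfl
  | succ k ih =>
    rw [prodM, prodM, ih fun j hj => h j (by omega), h k (by omega)]

end Mat

/-! ### The cube as functions on `Fin m` -/

/-- The cube as functions on `Fin m`. -/
def cubeEquiv : ∀ m, Cube m ≃ (Fin m → Bool)
  | 0 => ⟨fun _ => Fin.elim0, fun _ => (), fun _ => rfl, fun _ => funext fun i => i.elim0⟩
  | m + 1 => (Equiv.prodCongr (Equiv.refl Bool) (cubeEquiv m)).trans
      (Fin.consEquiv (fun _ : Fin (m + 1) => Bool))

/-- The same with explicit product type. -/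
def cubeEquiv' (m : ℕ) : Bool × Cube m ≃ (Fin (m + 1) → Bool) :=
  (Equiv.prodCongr (Equiv.refl Bool) (cubeEquiv m)).trans
      (Fin.consEquiv (fun _ : Fin (m + 1) => Bool))

theorem cubeEquiv'_apply (m : ℕ) (b : Bool) (x : Cube m) :
    cubeEquiv' m (b, x) = Fin.cons b (cubeEquiv m x) := rfl

/-- Flip of the bit with number `j`. -/
def fl (m j : ℕ) (f : Fin m → Bool) : Fin m → Bool := fun i => if i.val = j then !f i else f i

theorem fl_zero_cons {m : ℕ} (b : Bool) (f : Fin m → Bool) :
    fl (m + 1) 0 (Fin.cons b f) = Fin.cons (!b) f := by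
  funext i
  refine Fin.cases ?_ (fun i => ?_) i
  · simp [fl]
  · simp [fl]

theorem fl_succ_cons {m : ℕ} (j : ℕ) (b : Bool) (f : Fin m → Bool) :
    fl (m + 1) (j + 1) (Fin.cons b f) = Fin.cons b (fl m j f) := by
  funext i
  refine Fin.cases ?_ (fun i => ?_) i
  · simp [fl]
  · simp [fl]

/-- Flip of a bit, in the cube. -/
def flC (m j : ℕ) (x : Cube m) : Cube m := (cubeEquiv m).symm (fl m j (cubeEquiv m x))

/-- Flip of a bit, in the cube. -/
def flC' (m j : ℕ) (x : Bool × Cube m) : Bool × Cube m :=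
  (cubeEquiv' m).symm (fl (m + 1) j (cubeEquiv' m x))

theorem flC'_zero (m : ℕ) : flC' m 0 = fun p : Bool × Cube m => (!p.1, p.2) := by
  funext p
  obtain ⟨b, x⟩ := p
  unfold flC'
  rw [Equiv.symm_apply_eq]
  rw [cubeEquiv'_apply, fl_zero_cons]
  rfl

theorem flC'_succ (m j : ℕ) :
    flC' m (j + 1) = fun p : Bool × Cube m => (p.1, flC m j p.2) := by
  funext p
  obtain ⟨b, x⟩ := p
  unfold flC' flC
  rw [Equiv.symm_apply_eq]
  rw [cubeEquiv'_apply, fl_succ_cons, cubeEquiv'_apply, Equiv.apply_symm_apply]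

theorem pass_step {V : Type*} [NormedAddCommGroup V] [InnerProductSpace ℝ V] (m : ℕ)
    (ρ : Perm (Bool × Cube m) →* (V →L[ℝ] V)) :
    prodM (ρ.comp (half false)) (flC m) m * prodM (ρ.comp (half true)) (flC m) m * avg ρ =
      prodM ρ (flC' m) (m + 1) := by
  rw [prodM_succ', flC'_zero]
  simp only [flC'_succ]
  rw [← prodM_halves, ← avg_eq_mat]

theorem pass_eq_prodM {V : Type*} [NormedAddCommGroup V] [InnerProductSpace ℝ V] (m : ℕ)
    (ρ : Perm (Cube m) →* (V →L[ℝ] V)) : pass m ρ = prodM ρ (flC m) m := by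
  induction m with
  | zero => rfl
  | succ m ih =>
    rw [pass, ih, ih]
    exact pass_step m ρ

/-! ### Encoding of the cube by numbers -/

/-- Big-endian value of a bit string. -/
def enc : ∀ m, (Fin m → Bool) → ℕ
  | 0, _ => 0
  | m + 1, f => (f 0).toNat * 2 ^ m + enc m (Fin.tail f)

theorem enc_lt (m : ℕ) (f : Fin m → Bool) : enc m f < 2 ^ m := by
  induction m with
  | zero => simp [enc]
  | succ m ih =>
    have h1 := ih (Fin.tail f)
    have h2 := Bool.toNat_le (f 0)
    rw [enc, pow_succ]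
    nlinarith

theorem enc_injective (m : ℕ) : Function.Injective (enc m) := by
  induction m with
  | zero => intro f g _; funext i; exact i.elim0
  | succ m ih =>
    intro f g h
    rw [enc, enc] at h
    have h1 := enc_lt m (Fin.tail f)
    have h2 := enc_lt m (Fin.tail g)
    have h3 : f 0 = g 0 ∧ enc m (Fin.tail f) = enc m (Fin.tail g) := by
      revert h
      cases f 0 <;> cases g 0 <;> simp <;> omega
    have h4 := ih h3.2
    rw [← Fin.cons_self_tail f, ← Fin.cons_self_tail g, h3.1, h4]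

theorem enc_snoc (m : ℕ) (f : Fin m → Bool) (b : Bool) :
    enc (m + 1) (Fin.snoc f b : Fin (m + 1) → Bool) = 2 * enc m f + b.toNat := by
  induction m with
  | zero => simp [enc, Fin.snoc]
  | succ m ih =>
    have h1 : Fin.tail (Fin.snoc f b : Fin (m + 2) → Bool) =
        (Fin.snoc (Fin.tail f) b : Fin (m + 1) → Bool) := by
      funext i
      refine Fin.lastCases ?_ (fun i => ?_) i
      · simp only [Fin.tail]
        rw [Fin.succ_last, Fin.snoc_last, Fin.snoc_last]
      · rw [Fin.snoc_castSucc]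
        simp only [Fin.tail]
        rw [Fin.succ_castSucc, Fin.snoc_castSucc]
    have h0 : (Fin.snoc f b : Fin (m + 2) → Bool) 0 = f 0 := by
      exact Fin.snoc_castSucc (α := fun _ => Bool) b f 0
    rw [enc, h0, h1, ih, enc, pow_succ]
    ring

/-- Bit strings of length `d + 1` as numbers below `2 * 2 ^ d`. -/
noncomputable def encEquiv (d : ℕ) : (Fin (d + 1) → Bool) ≃ Fin (2 * 2 ^ d) :=
  Equiv.ofBijective (fun f => ⟨enc (d + 1) f, by
      have := enc_lt (d + 1) f
      rw [pow_succ] at this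
      omega⟩) (by
    rw [Fintype.bijective_iff_injective_and_card]
    refine ⟨fun f g h => enc_injective (d + 1) (by simpa using congrArg Fin.val h), ?_⟩
    simp [pow_succ, mul_comm])

theorem encEquiv_val (d : ℕ) (f : Fin (d + 1) → Bool) :
    (encEquiv d f).val = (f 0).toNat * 2 ^ d + enc d (Fin.tail f) := rfl

/-- Rotation of a bit string. -/
def rotB (d : ℕ) : Perm (Fin (d + 1) → Bool) where
  toFun f k := f (k + 1)
  invFun f k := f (k - 1)
  left_inv f := by funext k; simp
  right_inv f := by funext k; simp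

theorem rotB_pow (d j : ℕ) (f : Fin (d + 1) → Bool) (k : Fin (d + 1)) :
    (rotB d ^ j) f k = f ⟨(k.val + j) % (d + 1), Nat.mod_lt _ (Nat.succ_pos d)⟩ := by
  induction j generalizing f with
  | zero =>
    simp only [pow_zero, Perm.coe_one, id_eq, Nat.add_zero]
    congr 1
    exact Fin.ext (Nat.mod_eq_of_lt k.isLt).symm
  | succ j ih =>
    rw [pow_succ, Perm.mul_apply, ih]
    simp only [rotB, Equiv.coe_fn_mk]
    congr 1
    apply Fin.ext
    rw [Fin.val_add, Fin.val_one', ← Nat.add_mod, add_assoc]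

theorem rotB_pow_self (d : ℕ) : rotB d ^ (d + 1) = 1 := by
  ext1 f
  funext k
  rw [rotB_pow]
  simp only [Perm.coe_one, id_eq]
  congr 1
  apply Fin.ext
  simp [Nat.mod_eq_of_lt k.isLt]

theorem rotB_conj (d j : ℕ) (hj : j < d + 1) (f : Fin (d + 1) → Bool) :
    fl (d + 1) 0 ((rotB d ^ j) f) = (rotB d ^ j) (fl (d + 1) j f) := by
  funext k
  rw [rotB_pow]
  simp only [fl]
  rw [rotB_pow]
  have hk := k.isLt
  have h : k.val = 0 ↔ (k.val + j) % (d + 1) = j := by
    constructor
    · intro h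
      rw [h, Nat.zero_add, Nat.mod_eq_of_lt hj]
    · intro h
      by_contra h0
      rcases Nat.lt_or_ge (k.val + j) (d + 1) with h1 | h1
      · rw [Nat.mod_eq_of_lt h1] at h
        omega
      · rw [Nat.mod_eq_sub_mod h1, Nat.mod_eq_of_lt (by omega)] at h
        omega
  by_cases h0 : k.val = 0
  · rw [if_pos h0, if_pos (h.1 h0)]
  · rw [if_neg h0, if_neg fun h' => h0 (h.2 h')]

/-! ### The Thorp shuffle as a rotation and independent swaps -/

/-- `(b, i) ↦ b * h + i`. -/
def topEquiv (h : ℕ) : Bool × Fin h ≃ Fin (2 * h) :=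
  (Equiv.prodCongr finTwoEquiv.symm (Equiv.refl (Fin h))).trans finProdFinEquiv

theorem topEquiv_val (h : ℕ) (b : Bool) (i : Fin h) :
    (topEquiv h (b, i)).val = i.val + h * b.toNat := by
  cases b <;> simp [topEquiv, finTwoEquiv, finProdFinEquiv]

theorem shuf_val (h : ℕ) (c : Fin h → Bool) (b : Bool) (i : Fin h) :
    (shuf h c (topEquiv h (b, i))).val = 2 * i.val + (xor b (c i)).toNat := by
  have hi := i.isLt
  have h1 : (topEquiv h (b, i)).val % h = i.val := by
    rw [topEquiv_val, Nat.add_mul_mod_self_left, Nat.mod_eq_of_lt hi]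
  have h2 : decide (h ≤ (topEquiv h (b, i)).val) = b := by
    rw [topEquiv_val]
    cases b <;> simp
  simp only [shuf, Equiv.ofBijective_apply, shufFun]
  simp only [h1, h2]

theorem shuf_eq (h : ℕ) (c : Fin h → Bool) :
    shuf h c = shuf h (fun _ => false) * (topEquiv h).permCongr (flipPerm c) := by
  ext1 x
  obtain ⟨⟨b, i⟩, rfl⟩ := (topEquiv h).surjective x
  apply Fin.ext
  rw [shuf_val, Perm.mul_apply, Equiv.permCongr_apply, Equiv.symm_apply_apply]
  change _ = (shuf h (fun _ => false) (topEquiv h (xor b (c i), i))).val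
  rw [shuf_val]
  simp

theorem avgOf_shuf {V : Type*} [NormedAddCommGroup V] [InnerProductSpace ℝ V] (h : ℕ)
    (ρ : Perm (Fin (2 * h)) →* (V →L[ℝ] V)) :
    avgOf ρ (shuf h) = ρ (shuf h (fun _ => false)) *
      mat ρ (fun x => topEquiv h (!((topEquiv h).symm x).1, ((topEquiv h).symm x).2)) := by
  rw [← mat_conj (topEquiv h) ρ (fun p : Bool × Fin h => (!p.1, p.2)), ← avg_eq_mat]
  unfold avg avgOf
  rw [mul_smul_comm, Finset.mul_sum]
  congr 1
  · simp
  · refine Finset.sum_congr rfl fun c _ => ?_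
    rw [shuf_eq h c, map_mul]
    rfl

theorem shuf_false_enc (d : ℕ) (f : Fin (d + 1) → Bool) :
    shuf (2 ^ d) (fun _ => false) (encEquiv d f) = encEquiv d (rotB d f) := by
  have h1 : encEquiv d f = topEquiv (2 ^ d) (f 0, ⟨enc d (Fin.tail f), enc_lt d _⟩) := by
    apply Fin.ext
    rw [encEquiv_val, topEquiv_val]
    ring
  have h2 : rotB d f = (Fin.snoc (Fin.tail f) (f 0) : Fin (d + 1) → Bool) := by
    funext k
    simp only [rotB, Equiv.coe_fn_mk]
    refine Fin.lastCases ?_ (fun i => ?_) k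
    · rw [Fin.snoc_last]
      simp
    · rw [Fin.snoc_castSucc]
      simp [Fin.tail]
  apply Fin.ext
  rw [h1, shuf_val, h2]
  change _ = enc (d + 1) (Fin.snoc (Fin.tail f) (f 0) : Fin (d + 1) → Bool)
  rw [enc_snoc]
  simp

theorem shuf_false_eq (d : ℕ) :
    shuf (2 ^ d) (fun _ => false) = (encEquiv d).permCongrHom (rotB d) := by
  ext1 x
  obtain ⟨f, rfl⟩ := (encEquiv d).surjective x
  rw [shuf_false_enc]
  change _ = (encEquiv d).permCongr (rotB d) (encEquiv d f)
  rw [Equiv.permCongr_apply, Equiv.symm_apply_apply]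

theorem topFlip_eq (d : ℕ) (x : Fin (2 * 2 ^ d)) :
    topEquiv (2 ^ d) (!((topEquiv (2 ^ d)).symm x).1, ((topEquiv (2 ^ d)).symm x).2) =
      encEquiv d (fl (d + 1) 0 ((encEquiv d).symm x)) := by
  obtain ⟨f, rfl⟩ := (encEquiv d).surjective x
  have h1 : ∀ f, encEquiv d f = topEquiv (2 ^ d) (f 0, ⟨enc d (Fin.tail f), enc_lt d _⟩) := by
    intro f
    apply Fin.ext
    rw [encEquiv_val, topEquiv_val]
    ring
  rw [Equiv.symm_apply_apply, h1 f, h1 (fl _ _ _), Equiv.symm_apply_apply]
  have h2 : fl (d + 1) 0 f 0 = !f 0 := by simp [fl]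
  have h3 : Fin.tail (fl (d + 1) 0 f) = Fin.tail f := by
    funext i
    simp [Fin.tail, fl]
  simp only [h2, h3]

/-- PART C1: `d + 1` Thorp shuffles of `2^(d+1)` cards are one pass over the cube. -/
theorem thorp_pass (d : ℕ) : ∃ e : Cube (d + 1) ≃ Fin (2 * 2 ^ d),
    ∀ (V : Type) [NormedAddCommGroup V] [InnerProductSpace ℝ V]
      (ρ : Perm (Fin (2 * 2 ^ d)) →* (V →L[ℝ] V)),
      (avgOf ρ (shuf (2 ^ d))) ^ (d + 1) =
        pass (d + 1) (ρ.comp e.permCongrHom.toMonoidHom) := by
  refine ⟨(cubeEquiv (d + 1)).trans (encEquiv d), ?_⟩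
  intro V _ _ ρ
  rw [avgOf_shuf, pow_rot, shuf_false_eq, ← map_pow, rotB_pow_self, map_one, map_one, one_mul,
    pass_eq_prodM]
  set e := (cubeEquiv (d + 1)).trans (encEquiv d) with he
  have h1 : ∀ k, prodM (ρ.comp e.permCongrHom.toMonoidHom) (flC (d + 1)) k =
      prodM ρ (fun j y => e (flC (d + 1) j (e.symm y))) k := by
    intro k
    induction k with
    | zero => rfl
    | succ k ih => rw [prodM, prodM, ih, mat_conj]
  rw [h1]
  refine prodM_congr ρ fun j hj => ?_
  funext x
  have h2 : ((encEquiv d).permCongrHom (rotB d)) ^ j =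
      (encEquiv d).permCongr (rotB d ^ j) := by
    rw [← map_pow]
    rfl
  rw [h2, topFlip_eq, Perm.inv_eq_iff_eq]
  obtain ⟨f, rfl⟩ := (encEquiv d).surjective x
  have h3 : e (flC (d + 1) j (e.symm (encEquiv d f))) = encEquiv d (fl (d + 1) j f) := by
    rw [he]
    simp only [Equiv.symm_trans_apply, Equiv.symm_apply_apply, Equiv.trans_apply, flC,
      Equiv.apply_symm_apply]
  rw [h3, Equiv.permCongr_apply, Equiv.symm_apply_apply, Equiv.permCongr_apply,
    Equiv.symm_apply_apply, Equiv.symm_apply_apply, rotB_conj d j hj]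

/-! ### Total variation against `L²` -/

theorem avgOf_reg_apply (h : ℕ) (f : EuclideanSpace ℝ (Perm (Fin (2 * h))))
    (σ : Perm (Fin (2 * h))) :
    avgOf (reg (Fin (2 * h))) (shuf h) f σ = ∑ τ, thorpLaw h τ * f (τ⁻¹ * σ) := by
  have h1 : avgOf (reg (Fin (2 * h))) (shuf h) f σ =
      ((2 : ℝ) ^ h)⁻¹ * ∑ c : Fin h → Bool, f ((shuf h c)⁻¹ * σ) := by
    unfold avgOf
    simp only [ContinuousLinearMap.smul_apply, ContinuousLinearMap.sum_apply, PiLp.smul_apply,
      WithLp.ofLp_sum, Finset.sum_apply, reg_apply, smul_eq_mul]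
    simp
  rw [h1]
  unfold thorpLaw
  have h2 : ∀ τ : Perm (Fin (2 * h)),
      ((Finset.univ.filter fun c : Fin h → Bool => shuf h c = τ).card / (2 : ℝ) ^ h) *
        f (τ⁻¹ * σ) = ((2 : ℝ) ^ h)⁻¹ *
          ∑ c ∈ Finset.univ.filter fun c : Fin h → Bool => shuf h c = τ,
            f ((shuf h c)⁻¹ * σ) := by
    intro τ
    have h3 : ∑ c ∈ Finset.univ.filter fun c : Fin h → Bool => shuf h c = τ,
        f ((shuf h c)⁻¹ * σ) =
          ∑ c ∈ Finset.univ.filter fun c : Fin h → Bool => shuf h c = τ, f (τ⁻¹ * σ) := by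
      refine Finset.sum_congr rfl fun c hc => ?_
      rw [(Finset.mem_filter.1 hc).2]
    rw [h3, Finset.sum_const, nsmul_eq_mul]
    ring
  simp only [h2]
  rw [← Finset.mul_sum]
  congr 1
  exact (Finset.sum_fiberwise Finset.univ (shuf h) fun c => f ((shuf h c)⁻¹ * σ)).symm

/-- The uniform density. -/
noncomputable def uni (X : Type*) [Fintype X] [DecidableEq X] : EuclideanSpace ℝ (Perm X) :=
  WithLp.toLp 2 fun _ => ((Fintype.card X).factorial : ℝ)⁻¹

theorem thorpLaw_sum (h : ℕ) : ∑ τ, thorpLaw h τ = 1 := by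
  unfold thorpLaw
  rw [← Finset.sum_div, ← Nat.cast_sum, Finset.sum_card_fiberwise_eq_card_filter]
  simp

theorem avgOf_uni (h : ℕ) : avgOf (reg (Fin (2 * h))) (shuf h) (uni (Fin (2 * h))) =
    uni (Fin (2 * h)) := by
  ext σ
  rw [avgOf_reg_apply]
  simp only [uni]
  rw [← Finset.sum_mul, thorpLaw_sum, one_mul]

theorem lawPow_eq (h t : ℕ) (σ : Perm (Fin (2 * h))) :
    lawPow h t σ = ((avgOf (reg (Fin (2 * h))) (shuf h)) ^ t)
      (dlt (Fin (2 * h)) + uni (Fin (2 * h))) σ := by
  induction t generalizing σ with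
  | zero => simp [lawPow, dlt, uni]
  | succ t ih =>
    rw [pow_succ', ContinuousLinearMap.mul_apply, avgOf_reg_apply, lawPow]
    refine Finset.sum_congr rfl fun τ _ => ?_
    rw [ih]

theorem pow_uni (h t : ℕ) : ((avgOf (reg (Fin (2 * h))) (shuf h)) ^ t) (uni (Fin (2 * h))) =
    uni (Fin (2 * h)) := by
  induction t with
  | zero => rfl
  | succ t ih => rw [pow_succ, ContinuousLinearMap.mul_apply, avgOf_uni, ih]

/-- PART C2: total variation against `L^2`. -/
theorem tv_le (h t : ℕ) : tv h t ≤ (1 / 2) * √((2 * h).factorial) *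
    ‖((avgOf (reg (Fin (2 * h))) (shuf h)) ^ t) (dlt (Fin (2 * h)))‖ := by
  set u := ((avgOf (reg (Fin (2 * h))) (shuf h)) ^ t) (dlt (Fin (2 * h))) with hu
  have h1 : tv h t = (1 / 2) * ∑ σ, |u σ| := by
    unfold tv
    congr 1
    refine Finset.sum_congr rfl fun σ _ => ?_
    rw [lawPow_eq, map_add, pow_uni, ← hu]
    simp [uni]
  have h2 : (∑ σ, |u σ|) ^ 2 ≤ (2 * h).factorial * ‖u‖ ^ 2 := by
    rw [EuclideanSpace.norm_sq_eq]
    have := sq_sum_le_card_mul_sum_sq (s := (Finset.univ : Finset (Perm (Fin (2 * h)))))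
      (f := fun σ => |u σ|)
    simpa [Fintype.card_perm] using this
  rw [h1, mul_assoc]
  refine mul_le_mul_of_nonneg_left ?_ (by norm_num)
  rw [← abs_of_nonneg (Finset.sum_nonneg fun σ _ => abs_nonneg (u σ)),
    ← Real.sqrt_sq_eq_abs]
  calc √((∑ σ, |u σ|) ^ 2) ≤ √((2 * h).factorial * ‖u‖ ^ 2) := Real.sqrt_le_sqrt h2
    _ = √((2 * h).factorial) * ‖u‖ := by
        rw [Real.sqrt_mul (Nat.cast_nonneg _), Real.sqrt_sq (norm_nonneg _)]

end Vale.Agent.Thorp
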