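import Vale.Agent.Thorp.PartD1

/-!
# P162, part D: `L^2` mixing of random transpositions
-/

open scoped InnerProductSpace
open Equiv Finset

namespace Vale.Agent.Thorp

namespace PD

section Exp

variable {V : Type*} [NormedAddCommGroup V] [InnerProductSpace ℝ V] [FiniteDimensional ℝ V]

/-- the exponential preserves invariant subspaces -/
theorem exp_mem {L : V →L[ℝ] V} {N : Submodule ℝ V} (hN : ∀ v ∈ N, L v ∈ N) {v : V} (hv : v ∈ N) :
    NormedSpace.exp L v ∈ N := by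
  have h1 := NormedSpace.exp_series_hasSum_exp' (𝕂 := ℝ) L
  have h2 : HasSum (fun n => ((n.factorial : ℝ)⁻¹ • L ^ n) v) (NormedSpace.exp L v) :=
    h1.mapL (ContinuousLinearMap.apply ℝ V v)
  have hpow : ∀ n, (L ^ n) v ∈ N := by
    intro n
    induction n with
    | zero => simpa using hv
    | succ n ih =>
      rw [pow_succ']
      exact hN _ ih
  have hclosed : IsClosed (N : Set V) := N.closed_of_finiteDimensional
  refine hclosed.mem_of_tendsto h2 (Filter.Eventually.of_forall fun s => ?_)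
  exact N.sum_mem fun n _ => N.smul_mem _ (hpow n)

/-- decay on an invariant subspace -/
theorem exp_decay {L : V →L[ℝ] V} {N : Submodule ℝ V} (hN : ∀ v ∈ N, L v ∈ N) {κ : ℝ}
    (hgap : ∀ v ∈ N, κ * ‖v‖ ^ 2 ≤ ⟪v, L v⟫_ℝ) {t : ℝ} (ht : 0 ≤ t) {v : V} (hv : v ∈ N) :
    ‖NormedSpace.exp (-t • L) v‖ ^ 2 ≤ Real.exp (-(2 * t * κ)) * ‖v‖ ^ 2 := by
  have hder : ∀ s : ℝ, HasDerivAt (fun s : ℝ => NormedSpace.exp (s • (-L)) v)
      ((-L) (NormedSpace.exp (s • (-L)) v)) s := by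
    intro s
    have h1 := hasDerivAt_exp_smul_const' (𝕂 := ℝ) (-L) s
    have h2 := h1.clm_apply (hasDerivAt_const s v)
    simpa using h2
  set y : ℝ → V := fun s => NormedSpace.exp (s • (-L)) v with hy
  have hymem : ∀ s, y s ∈ N := fun s => exp_mem (fun w hw => by
    show s • (-L) w ∈ N
    exact N.smul_mem _ (N.neg_mem (hN w hw))) hv
  have hf : ∀ s : ℝ, HasDerivAt (fun s => Real.exp (2 * κ * s) * ‖y s‖ ^ 2)
      (Real.exp (2 * κ * s) * (2 * κ) * ‖y s‖ ^ 2
        + Real.exp (2 * κ * s) * (2 * ⟪y s, (-L) (y s)⟫_ℝ)) s := by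
    intro s
    have h1 : HasDerivAt (fun s : ℝ => Real.exp (2 * κ * s)) (Real.exp (2 * κ * s) * (2 * κ)) s := by
      have := ((hasDerivAt_id s).const_mul (2 * κ)).exp
      simpa using this
    exact h1.mul (hder s).norm_sq
  have hanti : Antitone (fun s => Real.exp (2 * κ * s) * ‖y s‖ ^ 2) := by
    refine antitone_of_deriv_nonpos (fun s => (hf s).differentiableAt) fun s => ?_
    rw [(hf s).deriv]
    have h1 := hgap (y s) (hymem s)
    have h2 : ⟪y s, (-L) (y s)⟫_ℝ = -⟪y s, L (y s)⟫_ℝ := by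
      rw [_root_.neg_apply, inner_neg_right]
    rw [h2]
    have h3 := Real.exp_pos (2 * κ * s)
    have h4 : Real.exp (2 * κ * s) * (2 * κ) * ‖y s‖ ^ 2
        + Real.exp (2 * κ * s) * (2 * -⟪y s, L (y s)⟫_ℝ)
        = Real.exp (2 * κ * s) * (2 * (κ * ‖y s‖ ^ 2 - ⟪y s, L (y s)⟫_ℝ)) := by ring
    rw [h4]
    exact mul_nonpos_of_nonneg_of_nonpos h3.le (by linarith)
  have h0 := hanti ht
  have hy0 : y 0 = v := by simp [hy]
  have hyt : y t = NormedSpace.exp (-t • L) v := by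
    simp [hy]
  simp only [hy0, mul_zero, Real.exp_zero, one_mul] at h0
  rw [hyt] at h0
  have h5 : Real.exp (-(2 * t * κ)) * (Real.exp (2 * κ * t) * ‖NormedSpace.exp (-t • L) v‖ ^ 2)
      = ‖NormedSpace.exp (-t • L) v‖ ^ 2 := by
    rw [← mul_assoc, ← Real.exp_add]
    have : -(2 * t * κ) + 2 * κ * t = 0 := by ring
    rw [this, Real.exp_zero, one_mul]
  rw [← h5]
  exact mul_le_mul_of_nonneg_left h0 (Real.exp_pos _).le

end Exp

section Regular

variable {X : Type} [Fintype X] [DecidableEq X]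

theorem apply_inv {Y : Type*} (σ : Perm Y) (z : Y) : σ (σ⁻¹ z) = z := σ.apply_symm_apply z

/-- indicator functions of `{σ | σ (y i) = x i for all i}` -/
noncomputable def FF (b : ℕ) (p : (Fin b → X) × (Fin b → X)) : EuclideanSpace ℝ (Perm X) :=
  WithLp.toLp 2 fun σ => if ∀ i, σ (p.2 i) = p.1 i then 1 else 0

omit [Fintype X] in
theorem FF_apply (b : ℕ) (p : (Fin b → X) × (Fin b → X)) (σ : Perm X) :
    FF b p σ = if ∀ i, σ (p.2 i) = p.1 i then 1 else 0 := rfl

/-- span of the indicator functions -/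
noncomputable def W (X : Type) [Fintype X] [DecidableEq X] (b : ℕ) :
    Submodule ℝ (EuclideanSpace ℝ (Perm X)) := Submodule.span ℝ (Set.range (FF (X := X) b))

theorem FF_mem (b : ℕ) (p : (Fin b → X) × (Fin b → X)) : FF b p ∈ W X b :=
  Submodule.subset_span ⟨p, rfl⟩

theorem finrank_W (b : ℕ) : Module.finrank ℝ (W X b) ≤ (Fintype.card X) ^ b * (Fintype.card X) ^ b := by
  have h := finrank_range_le_card (R := ℝ) (FF (X := X) b)
  rw [Set.finrank] at h
  refine h.trans (le_of_eq ?_)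
  simp

theorem FF_succ (b : ℕ) (p : (Fin b → X) × (Fin b → X)) (y' : X) :
    FF b p = ∑ x' : X, FF (b + 1) (Fin.cons x' p.1, Fin.cons y' p.2) := by
  ext σ
  rw [FF_apply]
  have h1 : (∑ x' : X, FF (b + 1) (Fin.cons x' p.1, Fin.cons y' p.2)) σ
      = ∑ x' : X, FF (b + 1) (Fin.cons x' p.1, Fin.cons y' p.2) σ := by
    simp
  rw [h1, Finset.sum_eq_single (σ y')]
  · rw [FF_apply]
    have : (∀ i : Fin (b + 1), σ ((Fin.cons y' p.2 : Fin (b + 1) → X) i)
        = (Fin.cons (σ y') p.1 : Fin (b + 1) → X) i) ↔ ∀ i, σ (p.2 i) = p.1 i := by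
      constructor
      · intro h i
        have := h i.succ
        simpa using this
      · intro h i
        refine Fin.cases ?_ (fun j => ?_) i
        · simp
        · simpa using h j
    by_cases hc : ∀ i, σ (p.2 i) = p.1 i
    · rw [if_pos hc, if_pos (this.2 hc)]
    · rw [if_neg hc, if_neg fun h => hc (this.1 h)]
  · intro x' _ hx'
    rw [FF_apply, if_neg]
    intro h
    have := h 0
    simp only [Fin.cons_zero] at this
    exact hx' this.symm
  · intro h; exact absurd (Finset.mem_univ _) h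

theorem W_le_succ [Nonempty X] (b : ℕ) : W X b ≤ W X (b + 1) := by
  refine Submodule.span_le.2 ?_
  rintro _ ⟨p, rfl⟩
  obtain ⟨y'⟩ := ‹Nonempty X›
  rw [FF_succ b p y']
  exact Submodule.sum_mem _ fun x' _ => FF_mem _ _

theorem reg_FF (g : Perm X) (b : ℕ) (p : (Fin b → X) × (Fin b → X)) :
    reg X g (FF b p) = FF b (fun i => g (p.1 i), p.2) := by
  ext σ
  rw [reg_apply, FF_apply, FF_apply]
  have : (∀ i, (g⁻¹ * σ) (p.2 i) = p.1 i) ↔ ∀ i, σ (p.2 i) = g (p.1 i) := by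
    refine forall_congr' fun i => ?_
    rw [Perm.mul_apply, Perm.inv_eq_iff_eq]
  by_cases hc : ∀ i, σ (p.2 i) = g (p.1 i)
  · rw [if_pos hc, if_pos (this.2 hc)]
  · rw [if_neg hc, if_neg fun h => hc (this.1 h)]

theorem reg_W (g : Perm X) (b : ℕ) {v : EuclideanSpace ℝ (Perm X)} (hv : v ∈ W X b) :
    reg X g v ∈ W X b := by
  have h : W X b ≤ (W X b).comap (reg X g).toLinearMap := by
    refine Submodule.span_le.2 ?_
    rintro _ ⟨p, rfl⟩
    show reg X g (FF b p) ∈ W X b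
    rw [reg_FF]
    exact FF_mem _ _
  exact h hv

theorem reg_W_orth (g : Perm X) (b : ℕ) {v : EuclideanSpace ℝ (Perm X)} (hv : v ∈ (W X b)ᗮ) :
    reg X g v ∈ (W X b)ᗮ := by
  rw [Submodule.mem_orthogonal] at hv ⊢
  intro u hu
  have h1 : reg X g (reg X g⁻¹ u) = u := by
    have : (reg X g * reg X g⁻¹) u = u := by
      rw [← map_mul, mul_inv_cancel, map_one]; rfl
    exact this
  rw [← h1, inner_rho (reg_orth X)]
  exact hv _ (reg_W _ _ hu)

theorem lap_mem {N : Submodule ℝ (EuclideanSpace ℝ (Perm X))}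
    (hN : ∀ (g : Perm X), ∀ v ∈ N, reg X g v ∈ N) {v : EuclideanSpace ℝ (Perm X)} (hv : v ∈ N) :
    lap (reg X) v ∈ N := by
  rw [← lapOn_univ, lapOn_apply (reg_orth X)]
  exact N.smul_mem _ (N.sum_mem fun x _ => N.sum_mem fun y _ => N.sub_mem hv (hN _ _ hv))

/-- vectors orthogonal to `W b` are killed by the large symmetric subgroups -/
theorem M_reg_zero {b : ℕ} {v : EuclideanSpace ℝ (Perm X)} (hv : v ∈ (W X b)ᗮ) {A : Finset X}
    (hA : A.card + b = Fintype.card X) : M (reg X) A v = 0 := by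
  have hAc : Aᶜ.card = b := by rw [Finset.card_compl]; omega
  set e := Finset.equivFinOfCardEq hAc with he
  set x : Fin b → X := fun i => (e.symm i : X) with hx
  ext σ
  rw [M_apply]
  have h1 : (∑ g ∈ S A, reg X g v) σ = ∑ g ∈ S A, v (g⁻¹ * σ) := by
    have : (∑ g ∈ S A, reg X g v) σ = ∑ g ∈ S A, (reg X g v) σ := by simp
    rw [this]
    exact Finset.sum_congr rfl fun g _ => reg_apply g v σ
  have h2 : ⟪FF b (x, fun i => σ⁻¹ (x i)), v⟫_ℝ = 0 :=
    (Submodule.mem_orthogonal _ _).1 hv _ (FF_mem _ _)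
  rw [PiLp.inner_apply] at h2
  have h3 : ∑ g ∈ S A, v (g⁻¹ * σ) = ∑ τ : Perm X, ⟪FF b (x, fun i => σ⁻¹ (x i)) τ, v τ⟫_ℝ := by
    have h4 : ∀ τ : Perm X, ⟪FF b (x, fun i => σ⁻¹ (x i)) τ, v τ⟫_ℝ
        = if ∀ i, τ (σ⁻¹ (x i)) = x i then v τ else 0 := by
      intro τ
      rw [FF_apply]
      show v τ * (if ∀ i, τ (σ⁻¹ (x i)) = x i then 1 else 0) = _
      by_cases hc : ∀ i, τ (σ⁻¹ (x i)) = x i
      · rw [if_pos hc, if_pos hc, mul_one]
      · rw [if_neg hc, if_neg hc, mul_zero]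
    rw [Finset.sum_congr rfl fun τ _ => h4 τ, ← Finset.sum_filter]
    refine Finset.sum_bij' (fun g _ => g⁻¹ * σ) (fun τ _ => σ * τ⁻¹) ?_ ?_ ?_ ?_ ?_
    · intro g hg
      rw [Finset.mem_filter]
      refine ⟨Finset.mem_univ _, fun i => ?_⟩
      have h5 : x i ∉ A := Finset.mem_compl.1 (e.symm i).2
      have h6 := mem_S.1 (inv_mem_S hg) (x i) h5
      rw [Perm.mul_apply, apply_inv, h6]
    · intro τ hτ
      rw [Finset.mem_filter] at hτ
      rw [mem_S]
      intro z hz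
      have hz' : z ∈ Aᶜ := Finset.mem_compl.2 hz
      have h7 : x (e ⟨z, hz'⟩) = z := by
        show ((e.symm (e ⟨z, hz'⟩) : _) : X) = z
        rw [Equiv.symm_apply_apply]
      have h8 := hτ.2 (e ⟨z, hz'⟩)
      rw [h7] at h8
      rw [Perm.mul_apply]
      have h9 : τ⁻¹ z = σ⁻¹ z := by rw [Perm.inv_eq_iff_eq]; exact h8.symm
      rw [h9, apply_inv]
    · intro g _; group
    · intro τ _; group
    · intro g _; rfl
  rw [h1, h3, h2]
  rfl

/-- gap on the orthogonal complement of `W b` -/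
theorem gap_W {b : ℕ} (hb : b + 1 ≤ Fintype.card X) {v : EuclideanSpace ℝ (Perm X)}
    (hv : v ∈ (W X b)ᗮ) :
    ((Fintype.card X : ℝ) * (b + 1) / 2) * ‖v‖ ^ 2 ≤ ⟪v, lap (reg X) v⟫_ℝ := by
  have h := gap (reg_orth X) (Fintype.card X) univ Finset.card_univ (Fintype.card X - b)
    (by omega) (by rw [Finset.card_univ]; omega) v fun A _ hA => M_reg_zero hv (by omega)
  rw [lapOn_univ, Finset.card_univ, Nat.cast_sub (by omega)] at h
  refine le_trans (le_of_eq ?_) h
  ring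

theorem W_top {b : ℕ} (hb : b + 1 = Fintype.card X) {v : EuclideanSpace ℝ (Perm X)}
    (hv : v ∈ (W X b)ᗮ) : v = 0 := by
  have hne : Nonempty X := Fintype.card_pos_iff.1 (by omega)
  obtain ⟨x⟩ := hne
  have h := M_reg_zero (A := {x}) hv (by rw [Finset.card_singleton]; omega)
  rw [M_singleton] at h
  exact h

/-- right translations -/
noncomputable def rt (h : Perm X) : EuclideanSpace ℝ (Perm X) ≃ₗᵢ[ℝ] EuclideanSpace ℝ (Perm X) :=
  LinearIsometryEquiv.piLpCongrLeft 2 ℝ ℝ (Equiv.mulRight h)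

theorem rt_apply (h : Perm X) (f : EuclideanSpace ℝ (Perm X)) (σ : Perm X) :
    rt h f σ = f (σ * h⁻¹) := by
  simp [rt, LinearIsometryEquiv.piLpCongrLeft_apply, Equiv.piCongrLeft'_apply]

theorem rt_FF (h : Perm X) (b : ℕ) (p : (Fin b → X) × (Fin b → X)) :
    rt h (FF b p) = FF b (p.1, fun i => h⁻¹ (p.2 i)) := by
  ext σ
  rw [rt_apply]
  rfl

theorem rt_W (h : Perm X) (b : ℕ) {v : EuclideanSpace ℝ (Perm X)} (hv : v ∈ W X b) :
    rt h v ∈ W X b := by
  have h1 : W X b ≤ (W X b).comap (rt h).toLinearEquiv.toLinearMap := by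
    refine Submodule.span_le.2 ?_
    rintro _ ⟨p, rfl⟩
    show rt h (FF b p) ∈ W X b
    rw [rt_FF]
    exact FF_mem _ _
  exact h1 hv

/-- values of the elements of `W b` at the identity -/
theorem eval_bound (b : ℕ) {w : EuclideanSpace ℝ (Perm X)} (hw : w ∈ W X b) :
    ((Fintype.card X).factorial : ℝ) * (w 1) ^ 2
      ≤ (Fintype.card X : ℝ) ^ (2 * b) * ‖w‖ ^ 2 := by
  set e := stdOrthonormalBasis ℝ (W X b) with he
  set k : Perm X → ℝ := fun σ => ∑ i, ((e i : EuclideanSpace ℝ (Perm X)) σ) ^ 2 with hk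
  have hk0 : ∀ σ, 0 ≤ k σ := fun σ => Finset.sum_nonneg fun i _ => sq_nonneg _
  -- evaluation
  have hev : ∀ w ∈ W X b, ∀ σ, (w σ) ^ 2 ≤ ‖w‖ ^ 2 * k σ := by
    intro w hw σ
    have h1 := e.sum_repr' ⟨w, hw⟩
    have h2 : w = ∑ i, ⟪e i, (⟨w, hw⟩ : W X b)⟫_ℝ • (e i : EuclideanSpace ℝ (Perm X)) := by
      have h0 := congrArg (Subtype.val : W X b → EuclideanSpace ℝ (Perm X)) h1
      rw [Submodule.coe_sum] at h0
      exact h0.symm
    have h3 : w σ = ∑ i, ⟪e i, (⟨w, hw⟩ : W X b)⟫_ℝ * (e i : EuclideanSpace ℝ (Perm X)) σ := by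
      conv_lhs => rw [h2]
      simp
    have h4 := e.sum_sq_norm_inner_right ⟨w, hw⟩
    have h5 : ∑ i, ⟪e i, (⟨w, hw⟩ : W X b)⟫_ℝ ^ 2 = ‖w‖ ^ 2 := by
      rw [show ‖w‖ = ‖(⟨w, hw⟩ : W X b)‖ from rfl, ← h4]
      exact Finset.sum_congr rfl fun i _ => by rw [Real.norm_eq_abs, sq_abs]
    rw [h3, ← h5]
    exact Finset.sum_mul_sq_le_sq_mul_sq _ _ _
  -- the kernel is translation invariant (one inequality is enough)
  have hinv : ∀ σ, k 1 ≤ k σ := by
    intro σ
    set w1 : EuclideanSpace ℝ (Perm X) :=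
      ∑ i, (e i : EuclideanSpace ℝ (Perm X)) 1 • (e i : EuclideanSpace ℝ (Perm X)) with hw1
    have hw1m : w1 ∈ W X b := Submodule.sum_mem _ fun i _ => Submodule.smul_mem _ _ (e i).2
    have h1 : w1 1 = k 1 := by
      rw [hw1]
      simp [hk, sq]
    have h2 : ‖w1‖ ^ 2 = k 1 := by
      have h3 : w1 = ((∑ i, (e i : EuclideanSpace ℝ (Perm X)) 1 • e i : W X b) :
          EuclideanSpace ℝ (Perm X)) := by
        rw [hw1]; simp
      have h4 : ‖w1‖ = ‖(∑ i, (e i : EuclideanSpace ℝ (Perm X)) 1 • e i : W X b)‖ := by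
        rw [h3]; rfl
      rw [h4, ← real_inner_self_eq_norm_sq, e.orthonormal.inner_sum]
      simp [hk, sq]
    have h5 := hev (rt σ w1) (rt_W σ b hw1m) σ
    rw [rt_apply, mul_inv_cancel, h1, LinearIsometryEquiv.norm_map, h2] at h5
    by_cases h6 : k 1 = 0
    · rw [h6]; exact hk0 σ
    · have h7 : 0 < k 1 := lt_of_le_of_ne (hk0 1) (Ne.symm h6)
      rw [sq] at h5
      exact le_of_mul_le_mul_left h5 h7
  have hsum : ∑ σ, k σ = Module.finrank ℝ (W X b) := by
    rw [hk, Finset.sum_comm]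
    have h1 : ∀ i, ∑ σ, ((e i : EuclideanSpace ℝ (Perm X)) σ) ^ 2 = 1 := by
      intro i
      have h2 := EuclideanSpace.real_norm_sq_eq (e i : EuclideanSpace ℝ (Perm X))
      rw [← h2]
      have h3 : ‖(e i : EuclideanSpace ℝ (Perm X))‖ = 1 := e.orthonormal.1 i
      rw [h3]; norm_num
    rw [Finset.sum_congr rfl fun i _ => h1 i]
    simp
  have hk1 : ((Fintype.card X).factorial : ℝ) * k 1 ≤ (Fintype.card X : ℝ) ^ (2 * b) := by
    have h1 : ∑ _σ : Perm X, k 1 ≤ ∑ σ, k σ := Finset.sum_le_sum fun σ _ => hinv σ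
    rw [hsum, Finset.sum_const, Finset.card_univ, Fintype.card_perm, nsmul_eq_mul] at h1
    refine h1.trans ?_
    have h2 := finrank_W (X := X) b
    have h3 : (Module.finrank ℝ (W X b) : ℝ) ≤ (Fintype.card X : ℝ) ^ b * (Fintype.card X : ℝ) ^ b := by
      exact_mod_cast h2
    refine h3.trans (le_of_eq ?_)
    rw [← pow_add]; congr 1; ring
  have h8 := hev w hw 1
  calc ((Fintype.card X).factorial : ℝ) * (w 1) ^ 2
      ≤ ((Fintype.card X).factorial : ℝ) * (‖w‖ ^ 2 * k 1) :=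
        mul_le_mul_of_nonneg_left h8 (Nat.cast_nonneg _)
    _ = (((Fintype.card X).factorial : ℝ) * k 1) * ‖w‖ ^ 2 := by ring
    _ ≤ _ := mul_le_mul_of_nonneg_right hk1 (sq_nonneg _)

omit [Fintype X] in
theorem FF_zero (p : (Fin 0 → X) × (Fin 0 → X)) (σ : Perm X) : FF 0 p σ = 1 := by
  rw [FF_apply, if_pos]
  intro i; exact i.elim0

theorem dlt_apply (σ : Perm X) :
    dlt X σ = (if σ = 1 then 1 else 0) - ((Fintype.card X).factorial : ℝ)⁻¹ := rfl

theorem dlt_orth : dlt X ∈ (W X 0)ᗮ := by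
  rw [Submodule.mem_orthogonal]
  intro u hu
  refine Submodule.span_induction (p := fun u _ => ⟪u, dlt X⟫_ℝ = 0) ?_ ?_ ?_ ?_ hu
  · rintro _ ⟨p, rfl⟩
    rw [PiLp.inner_apply]
    have h1 : ∀ σ : Perm X, ⟪FF 0 p σ, dlt X σ⟫_ℝ
        = (if σ = 1 then (1 : ℝ) else 0) - ((Fintype.card X).factorial : ℝ)⁻¹ := by
      intro σ
      rw [FF_zero]
      show dlt X σ * 1 = _
      rw [mul_one, dlt_apply]
    rw [Finset.sum_congr rfl fun σ _ => h1 σ, Finset.sum_sub_distrib, Finset.sum_ite_eq',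
      if_pos (Finset.mem_univ _), Finset.sum_const, Finset.card_univ, Fintype.card_perm,
      nsmul_eq_mul, mul_inv_cancel₀ (by positivity), sub_self]
  · exact inner_zero_left _
  · intro x y _ _ hx hy
    rw [inner_add_left, hx, hy, add_zero]
  · intro a x _ hx
    rw [real_inner_smul_left, hx, mul_zero]

theorem inner_dlt {w : EuclideanSpace ℝ (Perm X)} (hw : w ∈ (W X 0)ᗮ) : ⟪w, dlt X⟫_ℝ = w 1 := by
  have h0 : ⟪FF 0 (Fin.elim0, Fin.elim0), w⟫_ℝ = 0 :=
    (Submodule.mem_orthogonal _ _).1 hw _ (FF_mem _ _)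
  rw [PiLp.inner_apply] at h0 ⊢
  have h1 : ∑ σ : Perm X, w σ = 0 := by
    rw [← h0]
    refine Finset.sum_congr rfl fun σ _ => ?_
    rw [FF_zero]
    show w σ = w σ * 1
    rw [mul_one]
  have h2 : ∀ σ : Perm X, ⟪w σ, dlt X σ⟫_ℝ
      = (if σ = 1 then w σ else 0) - ((Fintype.card X).factorial : ℝ)⁻¹ * w σ := by
    intro σ
    show dlt X σ * w σ = _
    rw [dlt_apply]
    by_cases h : σ = 1
    · rw [if_pos h, if_pos h]; ring
    · rw [if_neg h, if_neg h]; ring
  rw [Finset.sum_congr rfl fun σ _ => h2 σ, Finset.sum_sub_distrib, Finset.sum_ite_eq',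
    if_pos (Finset.mem_univ _), ← Finset.mul_sum, h1, mul_zero, sub_zero]

theorem W_mono [Nonempty X] {b c : ℕ} (h : b ≤ c) : W X b ≤ W X c := by
  induction h with
  | refl => exact le_rfl
  | step _ ih => exact ih.trans (W_le_succ _)

/-- the components of `dlt` -/
noncomputable def comp (X : Type) [Fintype X] [DecidableEq X] (b : ℕ) :
    EuclideanSpace ℝ (Perm X) := dlt X - (W X b).starProjection (dlt X)

theorem comp_mem (b : ℕ) : comp X b ∈ (W X b)ᗮ := Submodule.sub_starProjection_mem_orthogonal _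

theorem comp_zero : comp X 0 = dlt X := by
  unfold comp
  have h : (W X 0).starProjection (dlt X) = 0 :=
    Submodule.eq_starProjection_of_mem_orthogonal (Submodule.zero_mem _) (by
      rw [sub_zero]; exact dlt_orth)
  rw [h, sub_zero]

/-- one step of the decomposition -/
theorem step [Nonempty X] {b : ℕ} (hb : b + 1 ≤ Fintype.card X) {t : ℝ} (ht : 0 ≤ t) :
    ((Fintype.card X).factorial : ℝ) * ‖NormedSpace.exp (-t • lap (reg X)) (comp X b)‖ ^ 2
      ≤ ((Fintype.card X).factorial : ℝ) * ‖NormedSpace.exp (-t • lap (reg X)) (comp X (b + 1))‖ ^ 2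
        + Real.exp (-(2 * t * ((Fintype.card X : ℝ) * (b + 1) / 2)))
          * (Fintype.card X : ℝ) ^ (2 * (b + 1)) := by
  have hW1 : W X b ≤ W X (b + 1) := W_le_succ b
  have hW0 : W X 0 ≤ W X b := W_mono (Nat.zero_le b)
  set w := comp X b - comp X (b + 1) with hw
  have hwW : w ∈ W X (b + 1) := by
    have : w = (W X (b + 1)).starProjection (dlt X) - (W X b).starProjection (dlt X) := by
      rw [hw]; unfold comp; abel
    rw [this]
    exact Submodule.sub_mem _ (Submodule.starProjection_apply_mem _ _)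
      (hW1 (Submodule.starProjection_apply_mem _ _))
  have hwO : w ∈ (W X b)ᗮ :=
    Submodule.sub_mem _ (comp_mem b) (Submodule.orthogonal_le hW1 (comp_mem (b + 1)))
  -- norm of w
  have hnorm : ‖w‖ ^ 2 = w 1 := by
    have h1 : ⟪w, dlt X⟫_ℝ = w 1 := inner_dlt (Submodule.orthogonal_le hW0 hwO)
    have h2 : ⟪w, comp X (b + 1)⟫_ℝ = 0 :=
      (Submodule.mem_orthogonal _ _).1 (comp_mem (b + 1)) w hwW
    have h3 : ⟪w, (W X b).starProjection (dlt X)⟫_ℝ = 0 := by
      rw [real_inner_comm]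
      exact (Submodule.mem_orthogonal _ _).1 hwO _ (Submodule.starProjection_apply_mem _ _)
    have h4 : ⟪w, comp X b⟫_ℝ = ⟪w, dlt X⟫_ℝ := by
      unfold comp
      rw [inner_sub_right, h3, sub_zero]
    rw [← real_inner_self_eq_norm_sq, ← h1, ← h4]
    conv_lhs => rw [hw]
    rw [← hw, inner_sub_right, h2, sub_zero]
  have hwn : ((Fintype.card X).factorial : ℝ) * ‖w‖ ^ 2 ≤ (Fintype.card X : ℝ) ^ (2 * (b + 1)) := by
    by_cases h0 : ‖w‖ ^ 2 = 0
    · rw [h0, mul_zero]; positivity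
    · have h1 : 0 < ‖w‖ ^ 2 := lt_of_le_of_ne (sq_nonneg _) (Ne.symm h0)
      have h2 := eval_bound (b + 1) hwW
      rw [← hnorm] at h2
      have h3 : ((Fintype.card X).factorial : ℝ) * (‖w‖ ^ 2) ^ 2
          = (((Fintype.card X).factorial : ℝ) * ‖w‖ ^ 2) * ‖w‖ ^ 2 := by ring
      rw [h3] at h2
      exact le_of_mul_le_mul_right h2 h1
  set U := NormedSpace.exp (-t • lap (reg X)) with hU
  have hUw : U w ∈ W X (b + 1) := exp_mem (fun v hv => by
    show -t • lap (reg X) v ∈ _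
    exact Submodule.smul_mem _ _ (lap_mem (fun g v hv => reg_W g _ hv) hv)) hwW
  have hUc : U (comp X (b + 1)) ∈ (W X (b + 1))ᗮ := exp_mem (fun v hv => by
    show -t • lap (reg X) v ∈ _
    exact Submodule.smul_mem _ _ (lap_mem (fun g v hv => reg_W_orth g _ hv) hv)) (comp_mem (b + 1))
  have horth : ⟪U (comp X (b + 1)), U w⟫_ℝ = 0 := by
    rw [real_inner_comm]
    exact (Submodule.mem_orthogonal _ _).1 hUc _ hUw
  have hsum : U (comp X b) = U (comp X (b + 1)) + U w := by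
    rw [← map_add]; congr 1; rw [hw]; abel
  have hpyth : ‖U (comp X b)‖ ^ 2 = ‖U (comp X (b + 1))‖ ^ 2 + ‖U w‖ ^ 2 := by
    rw [hsum, norm_add_sq_real, horth]; ring
  have hdec : ‖U w‖ ^ 2 ≤ Real.exp (-(2 * t * ((Fintype.card X : ℝ) * (b + 1) / 2))) * ‖w‖ ^ 2 :=
    exp_decay (N := (W X b)ᗮ) (fun v hv => lap_mem (fun g v hv => reg_W_orth g _ hv) hv)
      (fun v hv => gap_W hb hv) ht hwO
  rw [hpyth, mul_add]
  refine add_le_add le_rfl ?_
  calc ((Fintype.card X).factorial : ℝ) * ‖U w‖ ^ 2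
      ≤ ((Fintype.card X).factorial : ℝ) *
        (Real.exp (-(2 * t * ((Fintype.card X : ℝ) * (b + 1) / 2))) * ‖w‖ ^ 2) :=
        mul_le_mul_of_nonneg_left hdec (Nat.cast_nonneg _)
    _ = Real.exp (-(2 * t * ((Fintype.card X : ℝ) * (b + 1) / 2)))
        * (((Fintype.card X).factorial : ℝ) * ‖w‖ ^ 2) := by ring
    _ ≤ _ := mul_le_mul_of_nonneg_left hwn (Real.exp_pos _).le

end Regular

end PD

open PD in
/-- PART D: `L^2` mixing of random transpositions after time `2 log n + 3`. -/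
theorem transp_L2 (X : Type) [Fintype X] [DecidableEq X] {T : ℝ}
    (hT : 2 * Real.log (Fintype.card X) + 3 ≤ T) :
    ((Fintype.card X).factorial : ℝ) *
      ‖(NormedSpace.exp (-(T / Fintype.card X) • lap (reg X))) (dlt X)‖ ^ 2 ≤ 1 / 10 := by
  by_cases hX : Nonempty X
  swap
  · have hE : IsEmpty X := not_nonempty_iff.1 hX
    have h0 : dlt X = 0 := by
      ext σ
      have hσ : σ = 1 := Subsingleton.elim _ _
      rw [dlt_apply, hσ]
      simp
    rw [h0, map_zero, norm_zero]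
    norm_num
  have hn1 : 1 ≤ Fintype.card X := Fintype.card_pos
  set n := Fintype.card X with hn
  have hnR : (1 : ℝ) ≤ n := by exact_mod_cast hn1
  have hlog : 0 ≤ Real.log n := Real.log_nonneg hnR
  set t := T / n with ht
  have ht0 : 0 ≤ t := div_nonneg (by linarith) (by linarith)
  have htn : t * n = T := by rw [ht]; field_simp
  -- basic ratio
  have hr : Real.exp (-T) * (n : ℝ) ^ 2 ≤ 1 / 11 := by
    have h1 : Real.exp (-T) ≤ Real.exp (-(2 * Real.log n + 3)) := Real.exp_le_exp.2 (by linarith)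
    have h2 : Real.exp (-(2 * Real.log n + 3)) * (n : ℝ) ^ 2 = Real.exp (-3) := by
      have h3 : (n : ℝ) ^ 2 = Real.exp (2 * Real.log n) := by
        rw [two_mul, Real.exp_add, Real.exp_log (by linarith)]; ring
      rw [h3, ← Real.exp_add]; congr 1; ring
    have h4 : Real.exp (-3) ≤ 1 / 11 := by
      rw [Real.exp_neg, ← one_div]
      refine one_div_le_one_div_of_le (by norm_num) ?_
      have h5 := Real.exp_one_gt_d9
      have h6 : Real.exp 3 = Real.exp 1 ^ 3 := by rw [← Real.exp_nat_mul]; norm_num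
      rw [h6]
      have h7 : (2.7 : ℝ) ^ 3 ≤ Real.exp 1 ^ 3 := pow_le_pow_left₀ (by norm_num) (by linarith) 3
      norm_num at h7
      linarith
    calc Real.exp (-T) * (n : ℝ) ^ 2 ≤ Real.exp (-(2 * Real.log n + 3)) * (n : ℝ) ^ 2 :=
          mul_le_mul_of_nonneg_right h1 (sq_nonneg _)
      _ = Real.exp (-3) := h2
      _ ≤ 1 / 11 := h4
  have hstep : ∀ b : ℕ, b + 1 ≤ n → (n.factorial : ℝ) *
      ‖NormedSpace.exp (-t • lap (reg X)) (comp X b)‖ ^ 2
      ≤ (n.factorial : ℝ) * ‖NormedSpace.exp (-t • lap (reg X)) (comp X (b + 1))‖ ^ 2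
        + (1 / 11) ^ (b + 1) := by
    intro b hb
    refine (step (X := X) hb ht0).trans (add_le_add le_rfl ?_)
    have h1 : Real.exp (-(2 * t * ((n : ℝ) * (b + 1) / 2))) * (n : ℝ) ^ (2 * (b + 1))
        = (Real.exp (-T) * (n : ℝ) ^ 2) ^ (b + 1) := by
      rw [mul_pow, ← Real.exp_nat_mul, ← pow_mul]
      congr 2
      push_cast
      rw [← htn]; ring
    rw [h1]
    exact pow_le_pow_left₀ (by positivity) hr _
  have hind : ∀ m : ℕ, m + 1 ≤ n → (n.factorial : ℝ) *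
      ‖NormedSpace.exp (-t • lap (reg X)) (comp X 0)‖ ^ 2
      ≤ (n.factorial : ℝ) * ‖NormedSpace.exp (-t • lap (reg X)) (comp X m)‖ ^ 2
        + (1 / 10) * (1 - (1 / 11) ^ m) := by
    intro m
    induction m with
    | zero => intro _; simp
    | succ m ih =>
      intro hm
      have h1 := ih (by omega)
      have h2 := hstep m (by omega)
      have h3 : (1 / 11 : ℝ) ^ (m + 1) = (1 / 11) ^ m * (1 / 11) := pow_succ _ _
      rw [h3] at h2 ⊢
      linarith
  have hfin := hind (n - 1) (by omega)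
  have htop : comp X (n - 1) = 0 := W_top (by omega) (comp_mem (n - 1))
  rw [htop, map_zero, norm_zero, comp_zero] at hfin
  have h1 : (0 : ℝ) ≤ (1 / 11) ^ (n - 1) := by positivity
  refine hfin.trans ?_
  norm_num

end Vale.Agent.Thorp
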