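import Vale.Agent.Thorp.Defs

/-!
# P162, the regular representation
-/

open scoped InnerProductSpace
open Equiv

namespace Vale.Agent.Thorp

/-- Left translation on functions on the group, `(g f) σ = f (g⁻¹ σ)`. -/
noncomputable def regIso (X : Type*) [Fintype X] [DecidableEq X] (g : Perm X) :
    EuclideanSpace ℝ (Perm X) ≃ₗᵢ[ℝ] EuclideanSpace ℝ (Perm X) :=
  LinearIsometryEquiv.piLpCongrLeft 2 ℝ ℝ (Equiv.mulLeft g)

theorem regIso_apply {X : Type*} [Fintype X] [DecidableEq X] (g : Perm X)
    (f : EuclideanSpace ℝ (Perm X)) (σ : Perm X) : regIso X g f σ = f (g⁻¹ * σ) := by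
  simp [regIso, LinearIsometryEquiv.piLpCongrLeft_apply, Equiv.piCongrLeft'_apply]

/-- Left regular representation: `(reg g f) σ = f (g⁻¹ σ)`. -/
noncomputable def reg (X : Type*) [Fintype X] [DecidableEq X] :
    Perm X →* (EuclideanSpace ℝ (Perm X) →L[ℝ] EuclideanSpace ℝ (Perm X)) where
  toFun g := (regIso X g).toContinuousLinearEquiv.toContinuousLinearMap
  map_one' := by
    ext f σ
    change regIso X 1 f σ = f σ
    rw [regIso_apply]; simp
  map_mul' g h := by
    ext f σ
    change regIso X (g * h) f σ = regIso X g (regIso X h f) σ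
    rw [regIso_apply, regIso_apply, regIso_apply, mul_inv_rev, mul_assoc]

theorem reg_apply {X : Type*} [Fintype X] [DecidableEq X] (g : Perm X)
    (f : EuclideanSpace ℝ (Perm X)) (σ : Perm X) : reg X g f σ = f (g⁻¹ * σ) :=
  regIso_apply g f σ

theorem reg_orth (X : Type*) [Fintype X] [DecidableEq X] : IsOrth (reg X) := by
  intro g v
  exact (regIso X g).norm_map v

/-- Density of the point mass at the identity minus the uniform law. -/
noncomputable def dlt (X : Type*) [Fintype X] [DecidableEq X] : EuclideanSpace ℝ (Perm X) :=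
  WithLp.toLp 2 fun σ => (if σ = 1 then 1 else 0) - ((Fintype.card X).factorial : ℝ)⁻¹

end Vale.Agent.Thorp
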