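import Vale.Agent.Thorp.PartAB
import Vale.Agent.Thorp.Reg

/-!
# P162, assembly
-/

open scoped InnerProductSpace
open Equiv

namespace Vale.Agent.Thorp

section

variable {V : Type*} [NormedAddCommGroup V] [InnerProductSpace ℝ V]

theorem norm_avgOf_le {S : Type*} [Fintype S] {X : Type*} {ρ : Perm X →* (V →L[ℝ] V)}
    (hρ : IsOrth ρ) (s : S → Perm X) (v : V) : ‖avgOf ρ s v‖ ≤ ‖v‖ := by
  have h : avgOf ρ s v = ((Fintype.card S : ℝ))⁻¹ • ∑ c : S, ρ (s c) v := by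
    simp [avgOf]
  rw [h, norm_smul, Real.norm_of_nonneg (by positivity)]
  have h2 : ‖∑ c : S, ρ (s c) v‖ ≤ ∑ _c : S, ‖v‖ := by
    refine (norm_sum_le _ _).trans (Finset.sum_le_sum fun c _ => ?_)
    rw [hρ]
  rw [Finset.sum_const, Finset.card_univ, nsmul_eq_mul] at h2
  rcases Nat.eq_zero_or_pos (Fintype.card S) with h0 | h0
  · rw [h0]; simp
  · have h0' : (0 : ℝ) < Fintype.card S := by exact_mod_cast h0
    calc ((Fintype.card S : ℝ))⁻¹ * ‖∑ c : S, ρ (s c) v‖ ≤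
          ((Fintype.card S : ℝ))⁻¹ * (Fintype.card S * ‖v‖) := by gcongr
      _ = ‖v‖ := by rw [← mul_assoc, inv_mul_cancel₀ h0'.ne', one_mul]

theorem norm_pow_le {T : V →L[ℝ] V} (hT : ∀ v, ‖T v‖ ≤ ‖v‖) (k : ℕ) (v : V) :
    ‖(T ^ k) v‖ ≤ ‖v‖ := by
  induction k with
  | zero => simp
  | succ k ih =>
    rw [pow_succ']
    exact (hT _).trans ih

theorem norm_pow_anti {T : V →L[ℝ] V} (hT : ∀ v, ‖T v‖ ≤ ‖v‖) {k l : ℕ} (hkl : k ≤ l) (v : V) :
    ‖(T ^ l) v‖ ≤ ‖(T ^ k) v‖ := by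
  obtain ⟨j, rfl⟩ := Nat.exists_eq_add_of_le hkl
  rw [add_comm, pow_add]
  exact norm_pow_le hT j _

theorem lap_comp_equiv {X Y : Type*} [Fintype X] [DecidableEq X] [Fintype Y] [DecidableEq Y]
    (e : X ≃ Y) (ρ : Perm Y →* (V →L[ℝ] V)) :
    lap (ρ.comp e.permCongrHom.toMonoidHom) = lap ρ := by
  unfold lap
  congr 1
  rw [← Equiv.sum_comp e]
  apply Finset.sum_congr rfl
  intro x _
  rw [← Equiv.sum_comp e (fun y => (1 - ρ (swap (e x) y)))]
  apply Finset.sum_congr rfl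
  intro y _
  congr 1
  have : e.permCongrHom (swap x y) = swap (e x) (e y) := by
    apply Equiv.ext
    intro z
    rw [Equiv.permCongrHom_coe, Equiv.permCongr_apply, Equiv.swap_apply_def, Equiv.swap_apply_def]
    by_cases h1 : e.symm z = x
    · have h1' : z = e x := by rw [← h1]; simp
      rw [if_pos h1, if_pos h1']
    · have h1' : z ≠ e x := fun h => h1 (by rw [h]; simp)
      rw [if_neg h1, if_neg h1']
      by_cases h2 : e.symm z = y
      · have h2' : z = e y := by rw [← h2]; simp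
        rw [if_pos h2, if_pos h2']
      · have h2' : z ≠ e y := fun h => h2 (by rw [h]; simp)
        rw [if_neg h2, if_neg h2']
        simp
  change ρ (e.permCongrHom (swap x y)) = _
  rw [this]

/-- Contraction of `r` passes. -/
theorem pass_pow_bound [CompleteSpace V] (m : ℕ) {ρ : Perm (Cube m) →* (V →L[ℝ] V)}
    (hρ : IsOrth ρ) (r : ℕ) (v : V) :
    ‖((pass m ρ) ^ r) v‖ ≤ ‖(NormedSpace.exp (-(r * (1 / 144) / 2 ^ m : ℝ) • lap ρ)) v‖ := by
  induction r generalizing v with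
  | zero => simp [NormedSpace.exp_zero]
  | succ r ih =>
    have h1 : ((pass m ρ) ^ (r + 1)) v = ((pass m ρ) ^ r) (pass m ρ v) := by
      rw [pow_succ]; rfl
    set E := (NormedSpace.exp (-(r * (1 / 144) / 2 ^ m : ℝ) • lap ρ) : V →L[ℝ] V) with hE
    have hEp : Commute E (pass m ρ) := by
      apply commute_pass
      intro g
      exact ((lap_commute g).smul_left _).exp_left
    have h2 : E (pass m ρ v) = pass m ρ (E v) := congrArg (fun T : V →L[ℝ] V => T v) hEp.eq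
    have h3 : ‖pass m ρ (E v)‖ ≤
        ‖(NormedSpace.exp (-((1 / 144) / 2 ^ m : ℝ) • lap ρ)) (E v)‖ := by
      refine (pass_bound m hρ (E v)).trans ?_
      apply exp_lap_mono hρ
      have : (0 : ℝ) ≤ (1 / 2) ^ m := by positivity
      gcongr
      linarith
    have hcomm : Commute (-((1 / 144) / 2 ^ m : ℝ) • lap ρ)
        (-(r * (1 / 144) / 2 ^ m : ℝ) • lap ρ) :=
      ((Commute.refl (lap ρ)).smul_left _).smul_right _
    have h4 : (NormedSpace.exp (-((1 / 144) / 2 ^ m : ℝ) • lap ρ)) (E v) =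
        (NormedSpace.exp (-(((r + 1 : ℕ) : ℝ) * (1 / 144) / 2 ^ m : ℝ) • lap ρ)) v := by
      have e : -(((r + 1 : ℕ) : ℝ) * (1 / 144) / 2 ^ m : ℝ) • lap ρ =
          -((1 / 144) / 2 ^ m : ℝ) • lap ρ + -(r * (1 / 144) / 2 ^ m : ℝ) • lap ρ := by
        rw [← add_smul]; congr 1; push_cast; ring
      rw [e, exp_add_comm hcomm]
      rfl
    rw [h1, ← h4]
    refine (ih (pass m ρ v)).trans ?_
    rw [h2]
    exact h3

end

/-- Assembly of the mixing bound from the parts C and D: the bound on the norm. -/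
theorem assemble_norm (h d r : ℕ) (e : Cube (d + 1) ≃ Fin (2 * h))
    (he : (avgOf (reg (Fin (2 * h))) (shuf h)) ^ (d + 1) =
      pass (d + 1) ((reg (Fin (2 * h))).comp e.permCongrHom.toMonoidHom))
    (t : ℕ) (ht : (d + 1) * r ≤ t) :
    ‖((avgOf (reg (Fin (2 * h))) (shuf h)) ^ t) (dlt (Fin (2 * h)))‖ ≤
      ‖(NormedSpace.exp (-(r * (1 / 144) / 2 ^ (d + 1) : ℝ) • lap (reg (Fin (2 * h)))))
        (dlt (Fin (2 * h)))‖ := by
  have hTc : ∀ v, ‖avgOf (reg (Fin (2 * h))) (shuf h) v‖ ≤ ‖v‖ :=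
    fun v => norm_avgOf_le (reg_orth _) _ v
  have horth : IsOrth ((reg (Fin (2 * h))).comp e.permCongrHom.toMonoidHom) :=
    (reg_orth _).comp _
  have h3 := pass_pow_bound (d + 1) horth r (dlt (Fin (2 * h)))
  rw [lap_comp_equiv e (reg (Fin (2 * h))), ← he, ← pow_mul] at h3
  exact (norm_pow_anti hTc ht _).trans h3

/-- Numerical end of the assembly. -/
theorem final_calc {N x z : ℝ} (hN : 0 ≤ N) (hx : x ≤ z) (hz0 : 0 ≤ z)
    (hz : N * z ^ 2 ≤ 1 / 10) : (1 / 2) * √N * x ≤ 1 / 4 := by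
  have h1 : √N * z ≤ 1 / 2 := by
    have h2 : (√N * z) ^ 2 ≤ (1 / 2) ^ 2 := by
      rw [mul_pow, Real.sq_sqrt hN]
      linarith
    exact le_of_sq_le_sq h2 (by norm_num)
  have h3 : √N * x ≤ √N * z := mul_le_mul_of_nonneg_left hx (Real.sqrt_nonneg _)
  nlinarith

end Vale.Agent.Thorp
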