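import Mathlib

/-!
# P162, the Thorp shuffle: definitions

Everything is done in an orthogonal representation `ρ : Perm X →* (V →L[ℝ] V)` of a symmetric
group on a finite dimensional real inner product space.
-/

open scoped InnerProductSpace

namespace Vale.Agent.Thorp

open Equiv

section Rep

variable {V : Type*} [NormedAddCommGroup V] [InnerProductSpace ℝ V]

/-- Orthogonal representation. -/
def IsOrth {X : Type*} (ρ : Perm X →* (V →L[ℝ] V)) : Prop := ∀ g v, ‖ρ g v‖ = ‖v‖

/-- Laplacian of the complete graph on `X`: the sum over all pairs `{x, y}` of `1 - ρ (x y)`. -/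
noncomputable def lap {X : Type*} [Fintype X] [DecidableEq X] (ρ : Perm X →* (V →L[ℝ] V)) :
    V →L[ℝ] V := (1 / 2 : ℝ) • ∑ x, ∑ y, (1 - ρ (swap x y))

end Rep

/-- The permutation of `Bool × ι` which flips the first coordinate according to the coins `c`. -/
def flipPerm {ι : Type*} (c : ι → Bool) : Perm (Bool × ι) where
  toFun p := (xor p.1 (c p.2), p.2)
  invFun p := (xor p.1 (c p.2), p.2)
  left_inv p := by simp
  right_inv p := by simp

/-- A permutation of `ι` acting on `{b} × ι`. -/
def half {ι : Type*} (b : Bool) : Perm ι →* Perm (Bool × ι) where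
  toFun σ :=
    { toFun := fun p => (p.1, if p.1 = b then σ p.2 else p.2)
      invFun := fun p => (p.1, if p.1 = b then σ.symm p.2 else p.2)
      left_inv := fun p => by
        obtain ⟨a, i⟩ := p
        by_cases h : a = b <;> simp [h]
      right_inv := fun p => by
        obtain ⟨a, i⟩ := p
        by_cases h : a = b <;> simp [h] }
  map_one' := by
    ext p <;> simp
  map_mul' σ τ := by
    ext p
    · simp
    · by_cases h : p.1 = b <;> simp [h]

section Rep

variable {V : Type*} [NormedAddCommGroup V] [InnerProductSpace ℝ V]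

/-- Average over all coins: independent fair swaps of `(false, i)` and `(true, i)`. -/
noncomputable def avg {ι : Type*} [Fintype ι] [DecidableEq ι]
    (ρ : Perm (Bool × ι) →* (V →L[ℝ] V)) : V →L[ℝ] V :=
  ((2 : ℝ) ^ Fintype.card ι)⁻¹ • ∑ c : ι → Bool, ρ (flipPerm c)

/-- Sum of the Laplacians of the complete graphs on the two halves. -/
noncomputable def lap2 {ι : Type*} [Fintype ι] [DecidableEq ι]
    (ρ : Perm (Bool × ι) →* (V →L[ℝ] V)) : V →L[ℝ] V :=
  lap (ρ.comp (half false)) + lap (ρ.comp (half true))

end Rep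

/-- The cube `{0,1}^m`. -/
def Cube : ℕ → Type
  | 0 => Unit
  | m + 1 => Bool × Cube m

instance instFintypeCube : ∀ m, Fintype (Cube m)
  | 0 => inferInstanceAs (Fintype Unit)
  | m + 1 => @instFintypeProd Bool (Cube m) _ (instFintypeCube m)

instance instDecidableEqCube : ∀ m, DecidableEq (Cube m)
  | 0 => inferInstanceAs (DecidableEq Unit)
  | m + 1 => @instDecidableEqProd Bool (Cube m) _ (instDecidableEqCube m)

section Rep

variable {V : Type*} [NormedAddCommGroup V] [InnerProductSpace ℝ V]

/-- One pass over the `m` coordinates (the first coordinate acts first). -/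
noncomputable def pass : (m : ℕ) → (Perm (Cube m) →* (V →L[ℝ] V)) → (V →L[ℝ] V)
  | 0, _ => 1
  | m + 1, ρ => pass m (ρ.comp (half false)) * pass m (ρ.comp (half true)) * avg ρ

/-- Averaging operator of one Thorp shuffle of `2 h` cards, in a representation. -/
noncomputable def avgOf {S : Type*} [Fintype S] {X : Type*} (ρ : Perm X →* (V →L[ℝ] V))
    (s : S → Perm X) : V →L[ℝ] V :=
  ((Fintype.card S : ℝ))⁻¹ • ∑ c : S, ρ (s c)

end Rep

/-- One Thorp shuffle of a deck of `2 h` cards (positions `0, …, 2 h - 1`) with coins `c`, as a map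
of positions. The card at the position `i < h` of the top half and the card at the position `h + i`
of the bottom half go to the positions `2 i` and `2 i + 1`, in the order given by the coin `c i`. -/
def shufFun (h : ℕ) (c : Fin h → Bool) (x : Fin (2 * h)) : Fin (2 * h) :=
  have hx := x.isLt
  have hh : 0 < h := by omega
  have hi : x.val % h < h := Nat.mod_lt _ hh
  ⟨2 * (x.val % h) + (xor (decide (h ≤ x.val)) (c ⟨x.val % h, hi⟩)).toNat, by
    have := Bool.toNat_le (xor (decide (h ≤ x.val)) (c ⟨x.val % h, hi⟩)); omega⟩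

theorem mod_eq_ite {h x : ℕ} (hx : x < 2 * h) : x % h = if h ≤ x then x - h else x := by
  split_ifs with h1
  · rw [Nat.mod_eq_sub_mod h1, Nat.mod_eq_of_lt (by omega)]
  · exact Nat.mod_eq_of_lt (by omega)

theorem shufFun_injective (h : ℕ) (c : Fin h → Bool) : Function.Injective (shufFun h c) := by
  intro x y hxy
  have hx := x.isLt
  have hy := y.isLt
  have hh : 0 < h := by omega
  have hi : x.val % h < h := Nat.mod_lt _ hh
  have hj : y.val % h < h := Nat.mod_lt _ hh
  have e := congrArg Fin.val hxy
  simp only [shufFun] at e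
  have b1 := Bool.toNat_le (xor (decide (h ≤ x.val)) (c ⟨x.val % h, hi⟩))
  have b2 := Bool.toNat_le (xor (decide (h ≤ y.val)) (c ⟨y.val % h, hj⟩))
  have e1 : x.val % h = y.val % h := by omega
  have e2 : (xor (decide (h ≤ x.val)) (c ⟨x.val % h, hi⟩)).toNat =
      (xor (decide (h ≤ y.val)) (c ⟨y.val % h, hj⟩)).toNat := by omega
  have e4 : c ⟨x.val % h, hi⟩ = c ⟨y.val % h, hj⟩ := by congr 1; exact Fin.ext e1
  rw [e4] at e2
  have e5 : decide (h ≤ x.val) = decide (h ≤ y.val) := by
    generalize decide (h ≤ x.val) = a at e2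
    generalize decide (h ≤ y.val) = b at e2
    generalize c ⟨y.val % h, hj⟩ = d at e2
    revert a b d
    decide
  have e6 : (h ≤ x.val) ↔ (h ≤ y.val) := by simpa using e5
  rw [mod_eq_ite hx, mod_eq_ite hy] at e1
  apply Fin.ext
  by_cases hc : h ≤ x.val
  · rw [if_pos hc, if_pos (e6.1 hc)] at e1
    have := e6.1 hc
    omega
  · rw [if_neg hc, if_neg (fun hy' => hc (e6.2 hy'))] at e1
    exact e1

/-- One Thorp shuffle of a deck of `2 h` cards with coins `c`, as a permutation of positions. -/
noncomputable def shuf (h : ℕ) (c : Fin h → Bool) : Perm (Fin (2 * h)) :=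
  Equiv.ofBijective (shufFun h c) (Finite.injective_iff_bijective.1 (shufFun_injective h c))

/-- Law of the permutation of positions after one Thorp shuffle of `2 h` cards. -/
noncomputable def thorpLaw (h : ℕ) (σ : Perm (Fin (2 * h))) : ℝ :=
  (Finset.univ.filter fun c : Fin h → Bool => shuf h c = σ).card / (2 : ℝ) ^ h

/-- Law after `t` independent Thorp shuffles (convolution power). -/
noncomputable def lawPow (h : ℕ) : ℕ → Perm (Fin (2 * h)) → ℝ
  | 0 => fun σ => if σ = 1 then 1 else 0
  | t + 1 => fun σ => ∑ τ, thorpLaw h τ * lawPow h t (τ⁻¹ * σ)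

/-- Total variation distance to the uniform law after `t` shuffles. -/
noncomputable def tv (h t : ℕ) : ℝ :=
  (1 / 2) * ∑ σ : Perm (Fin (2 * h)), |lawPow h t σ - ((2 * h).factorial : ℝ)⁻¹|

/-- Mixing time of the Thorp shuffle of a deck of `2 h` cards. -/
noncomputable def tmix (h : ℕ) : ℕ := sInf {t | tv h t ≤ 1 / 4}

end Vale.Agent.Thorp
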