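import Vale.Agent.Thorp.Sectors

/-!
# P162, the energy inequality
-/

open scoped InnerProductSpace
open Equiv

namespace Vale.Agent.Thorp

variable {V : Type*} [NormedAddCommGroup V] [InnerProductSpace ℝ V]
variable {ι : Type*} [Fintype ι] [DecidableEq ι]

/-- Signed sum of the four transpositions between two pairs. -/
noncomputable def tau (ρ : Perm (Bool × ι) →* (V →L[ℝ] V)) (p q : ι) : V →L[ℝ] V :=
  ρ (swap (false, p) (false, q)) + ρ (swap (true, p) (true, q))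
    - ρ (swap (false, p) (true, q)) - ρ (swap (true, p) (false, q))

variable {ρ : Perm (Bool × ι) →* (V →L[ℝ] V)}

omit [Fintype ι] in
theorem tau_apply (p q : ι) (v : V) : tau ρ p q v =
    ρ (swap (false, p) (false, q)) v + ρ (swap (true, p) (true, q)) v
      - ρ (swap (false, p) (true, q)) v - ρ (swap (true, p) (false, q)) v := by
  simp [tau]

omit [Fintype ι] in
theorem flip_swap (c : ι → Bool) (x y : Bool × ι) (v : V) :
    ρ (flipPerm c) (ρ (swap x y) v) =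
      ρ (swap (flipPerm c x) (flipPerm c y)) (ρ (flipPerm c) v) := by
  rw [← rep_mul_apply, ← rep_mul_apply, Equiv.swap_apply_apply]
  simp

omit [Fintype ι] in
theorem flip_tau (c : ι → Bool) {p q : ι} (hpq : p ≠ q) (v : V) :
    ρ (flipPerm c) (tau ρ p q v) = chi {p, q} c • tau ρ p q (ρ (flipPerm c) v) := by
  have hchi : chi {p, q} c = (if c p then (-1 : ℝ) else 1) * (if c q then (-1 : ℝ) else 1) := by
    unfold chi
    rw [Finset.prod_pair hpq]
  have hf : ∀ (b : Bool) (i : ι), flipPerm c (b, i) = (xor b (c i), i) := fun b i => rfl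
  rw [tau_apply, map_sub, map_sub, map_add, flip_swap, flip_swap, flip_swap, flip_swap, hchi,
    tau_apply]
  simp only [hf]
  cases c p <;> cases c q <;> simp <;> abel

theorem sec_tau {p q : ι} (hpq : p ≠ q) (S : Finset ι) (v : V) :
    sec ρ S (tau ρ p q v) = tau ρ p q (sec ρ (symmDiff S {p, q}) v) := by
  rw [sec_apply, sec_apply, map_smul, map_sum]
  congr 1
  apply Finset.sum_congr rfl
  intro c _
  rw [flip_tau c hpq, map_smul, smul_smul, chi_symmDiff]

omit [Fintype ι] in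
theorem swap_eq_flip (p : ι) :
    swap ((false, p) : Bool × ι) (true, p) = flipPerm (fun i => decide (i = p)) := by
  apply Equiv.ext
  rintro ⟨b, i⟩
  rw [Equiv.swap_apply_def]
  have hf : flipPerm (fun i => decide (i = p)) (b, i) = (xor b (decide (i = p)), i) := rfl
  rw [hf]
  by_cases h : i = p
  · subst h
    cases b <;> simp
  · have h1 : ¬ ((b, i) = ((false, p) : Bool × ι)) := fun h' => h (Prod.ext_iff.1 h').2
    have h2 : ¬ ((b, i) = ((true, p) : Bool × ι)) := fun h' => h (Prod.ext_iff.1 h').2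
    rw [if_neg h1, if_neg h2]
    simp [h]

theorem sec_flip (c : ι → Bool) (S : Finset ι) (v : V) :
    sec ρ S (ρ (flipPerm c) v) = chi S c • sec ρ S v := by
  rw [← flip_sec, sec_apply, sec_apply, map_smul, map_sum]
  congr 1
  apply Finset.sum_congr rfl
  intro c' _
  have hx : xorC c' c = xorC c c' := by
    funext i
    simp [xorC, Bool.xor_comm]
  rw [map_smul, ← rep_mul_apply, ← rep_mul_apply, flip_mul, flip_mul, hx]

omit [Fintype ι] in
theorem chi_single (S : Finset ι) (p : ι) :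
    chi S (fun i => decide (i = p)) = if p ∈ S then -1 else 1 := by
  unfold chi
  split_ifs with h
  · rw [Finset.prod_eq_single p]
    · simp
    · intro q _ hq; simp [hq]
    · intro h'; exact absurd h h'
  · apply Finset.prod_eq_one
    intro q hq
    have : q ≠ p := fun h' => h (h' ▸ hq)
    simp [this]

theorem sec_tau_diag (p : ι) (S : Finset ι) (v : V) :
    sec ρ S (tau ρ p p v) = (if p ∈ S then (4 : ℝ) else 0) • sec ρ S v := by
  rw [tau_apply, swap_self, swap_self, swap_comm (true, p) (false, p), swap_eq_flip]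
  have h1 : ρ (Equiv.refl (Bool × ι)) v = v := rep_one_apply v
  rw [h1, map_sub, map_sub, map_add, sec_flip, chi_single]
  split_ifs
  · rw [neg_one_smul]
    have : (4 : ℝ) • sec ρ S v = sec ρ S v + sec ρ S v + sec ρ S v + sec ρ S v := by
      rw [show (4 : ℝ) = 1 + 1 + 1 + 1 by norm_num]
      simp only [add_smul, one_smul]
    rw [this]; abel
  · rw [one_smul, zero_smul]; abel

omit [Fintype ι] in
theorem tau_symm (hρ : IsOrth ρ) (p q : ι) (u v : V) :
    ⟪tau ρ p q u, v⟫_ℝ = ⟪u, tau ρ p q v⟫_ℝ := by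
  simp only [tau_apply, inner_sub_left, inner_add_left, inner_sub_right, inner_add_right,
    hρ.adj_invol (swap_mul_self _ _)]

omit [Fintype ι] in
theorem norm_tau_le (hρ : IsOrth ρ) (p q : ι) (v : V) : ‖tau ρ p q v‖ ≤ 4 * ‖v‖ := by
  rw [tau_apply]
  calc _ ≤ ‖ρ (swap (false, p) (false, q)) v + ρ (swap (true, p) (true, q)) v
      - ρ (swap (false, p) (true, q)) v‖ + ‖ρ (swap (true, p) (false, q)) v‖ := norm_sub_le _ _
    _ ≤ (‖ρ (swap (false, p) (false, q)) v + ρ (swap (true, p) (true, q)) v‖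
      + ‖ρ (swap (false, p) (true, q)) v‖) + ‖ρ (swap (true, p) (false, q)) v‖ := by
        gcongr; exact norm_sub_le _ _
    _ ≤ ((‖ρ (swap (false, p) (false, q)) v‖ + ‖ρ (swap (true, p) (true, q)) v‖)
      + ‖ρ (swap (false, p) (true, q)) v‖) + ‖ρ (swap (true, p) (false, q)) v‖ := by
        gcongr; exact norm_add_le _ _
    _ = 4 * ‖v‖ := by rw [hρ, hρ, hρ, hρ]; ring

omit [Fintype ι] in
theorem norm_sq_tau_le (hρ : IsOrth ρ) (p q : ι) (w : V) : ‖tau ρ p q w‖ ^ 2 ≤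
    8 * (⟪w, w - ρ (swap (false, p) (false, q)) w⟫_ℝ + ⟪w, w - ρ (swap (true, p) (true, q)) w⟫_ℝ
      + ⟪w, w - ρ (swap (false, p) (true, q)) w⟫_ℝ
      + ⟪w, w - ρ (swap (true, p) (false, q)) w⟫_ℝ) := by
  have e : tau ρ p q w = -((w - ρ (swap (false, p) (false, q)) w)
      + (w - ρ (swap (true, p) (true, q)) w) - (w - ρ (swap (false, p) (true, q)) w)
      - (w - ρ (swap (true, p) (false, q)) w)) := by
    rw [tau_apply]; abel
  have h1 := hρ.norm_sub_sq (swap ((false, p) : Bool × ι) (false, q)) w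
  have h2 := hρ.norm_sub_sq (swap ((true, p) : Bool × ι) (true, q)) w
  have h3 := hρ.norm_sub_sq (swap ((false, p) : Bool × ι) (true, q)) w
  have h4 := hρ.norm_sub_sq (swap ((true, p) : Bool × ι) (false, q)) w
  have h5 : ‖tau ρ p q w‖ ≤ ‖w - ρ (swap (false, p) (false, q)) w‖
      + ‖w - ρ (swap (true, p) (true, q)) w‖ + ‖w - ρ (swap (false, p) (true, q)) w‖
      + ‖w - ρ (swap (true, p) (false, q)) w‖ := by
    rw [e, norm_neg]
    refine (norm_sub_le _ _).trans ?_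
    gcongr
    refine (norm_sub_le _ _).trans ?_
    gcongr
    exact norm_add_le _ _
  set a := ‖w - ρ (swap (false, p) (false, q)) w‖
  set b := ‖w - ρ (swap (true, p) (true, q)) w‖
  set c := ‖w - ρ (swap (false, p) (true, q)) w‖
  set d := ‖w - ρ (swap (true, p) (false, q)) w‖
  have h6 : ‖tau ρ p q w‖ ^ 2 ≤ (a + b + c + d) ^ 2 :=
    pow_le_pow_left₀ (norm_nonneg _) h5 2
  nlinarith [sq_nonneg (a - b), sq_nonneg (a - c), sq_nonneg (a - d), sq_nonneg (b - c),
    sq_nonneg (b - d), sq_nonneg (c - d)]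

omit [DecidableEq ι] in
theorem sum_prod_prod (F : Bool × ι → Bool × ι → ℝ) :
    ∑ x, ∑ y, F x y = ∑ p, ∑ q, (F (false, p) (false, q) + F (true, p) (true, q)
      + F (false, p) (true, q) + F (true, p) (false, q)) := by
  simp only [Fintype.sum_prod_type, Fintype.sum_bool, Finset.sum_add_distrib]
  ring

theorem sum_norm_sq_tau_le (hρ : IsOrth ρ) (w : V) :
    ∑ p, ∑ q, ‖tau ρ p q w‖ ^ 2 ≤ 16 * ⟪w, lap ρ w⟫_ℝ := by
  rw [inner_lap, sum_prod_prod]
  calc _ ≤ ∑ p : ι, ∑ q : ι, 8 * (⟪w, w - ρ (swap (false, p) (false, q)) w⟫_ℝ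
      + ⟪w, w - ρ (swap (true, p) (true, q)) w⟫_ℝ
      + ⟪w, w - ρ (swap (false, p) (true, q)) w⟫_ℝ
      + ⟪w, w - ρ (swap (true, p) (false, q)) w⟫_ℝ) :=
        Finset.sum_le_sum fun p _ => Finset.sum_le_sum fun q _ => norm_sq_tau_le hρ p q w
    _ = _ := by
        simp_rw [← Finset.mul_sum]
        ring

omit [Fintype ι] in
theorem half_swap (b : Bool) (p q : ι) : half b (swap p q) = swap (b, p) (b, q) := by
  apply Equiv.ext
  rintro ⟨a, i⟩
  have hf : half b (swap p q) (a, i) = (a, if a = b then swap p q i else i) := rfl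
  rw [hf, Equiv.swap_apply_def, Equiv.swap_apply_def]
  by_cases h : a = b
  · subst h
    by_cases h1 : i = p
    · subst h1; simp
    · by_cases h2 : i = q
      · subst h2; simp [h1]
      · simp [h1, h2]
  · simp [h]

theorem lap2_apply (v : V) : lap2 ρ v = (1 / 2 : ℝ) • ∑ p, ∑ q,
    ((v - ρ (swap (false, p) (false, q)) v) + (v - ρ (swap (true, p) (true, q)) v)) := by
  change lap (ρ.comp (half false)) v + lap (ρ.comp (half true)) v = _
  rw [lap_apply, lap_apply, ← smul_add]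
  congr 1
  simp_rw [Finset.sum_add_distrib]
  congr 1 <;>
  · apply Finset.sum_congr rfl
    intro p _
    apply Finset.sum_congr rfl
    intro q _
    rw [← half_swap]
    rfl

theorem lap_sub_lap2 (v : V) :
    lap ρ v - (2 : ℝ) • lap2 ρ v = (1 / 2 : ℝ) • ∑ p, ∑ q, tau ρ p q v := by
  have h : lap ρ v = (1 / 2 : ℝ) • ∑ p, ∑ q, ((v - ρ (swap (false, p) (false, q)) v)
      + (v - ρ (swap (true, p) (true, q)) v) + (v - ρ (swap (false, p) (true, q)) v)
      + (v - ρ (swap (true, p) (false, q)) v)) := by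
    rw [lap_apply]
    congr 1
    simp only [Fintype.sum_prod_type, Fintype.sum_bool, Finset.sum_add_distrib]
    abel
  rw [h, lap2_apply, smul_comm (2 : ℝ), ← smul_sub]
  congr 1
  rw [Finset.smul_sum, ← Finset.sum_sub_distrib]
  apply Finset.sum_congr rfl
  intro p _
  rw [Finset.smul_sum, ← Finset.sum_sub_distrib]
  apply Finset.sum_congr rfl
  intro q _
  rw [tau_apply, two_smul]
  abel

/-- Scalar inequality behind the pair bound. -/
theorem scalar_bound {β A B x y : ℝ} (hβ1 : 1 ≤ β) (hβ2 : β ≤ 2) (hA : 0 < A)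
    (hAB : A * B = 5 / 2) (hx : 0 ≤ x) (hy : 0 ≤ y) :
    (β ^ 2 + 1) * (x * y) ≤ β ^ 2 * (A * x ^ 2) + B * y ^ 2 := by
  have h1 : β ^ 2 + 1 ≤ 5 / 2 * β := by nlinarith
  have h2 : (β ^ 2 + 1) * (x * y) ≤ 5 / 2 * β * (x * y) :=
    mul_le_mul_of_nonneg_right h1 (mul_nonneg hx hy)
  have h3 : 0 ≤ A * (β ^ 2 * (A * x ^ 2) + B * y ^ 2 - 5 / 2 * β * (x * y)) := by
    have : A * (β ^ 2 * (A * x ^ 2) + B * y ^ 2 - 5 / 2 * β * (x * y)) =
        (β * A * x - 5 / 4 * y) ^ 2 + (15 / 16) * y ^ 2 + (A * B - 5 / 2) * y ^ 2 := by ring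
    rw [this, hAB]
    nlinarith [sq_nonneg (β * A * x - 5 / 4 * y), sq_nonneg y]
  have h4 : 0 ≤ β ^ 2 * (A * x ^ 2) + B * y ^ 2 - 5 / 2 * β * (x * y) :=
    nonneg_of_mul_nonneg_right h3 hA
  linarith

/-- Bound attached to the pair `p, q` and the sector `S`. -/
noncomputable def Rb (ρ : Perm (Bool × ι) →* (V →L[ℝ] V)) (n : ℝ) (w : V) (p q : ι)
    (S : Finset ι) : ℝ :=
  (if p ∈ S ∧ q ∈ S then 40 * n / (S.card - 1) * ‖sec ρ S w‖ ^ 2 else 0)
    + (if p ∉ S ∧ q ∉ S then (S.card + 1) / (16 * n) * ‖tau ρ p q (sec ρ S w)‖ ^ 2 else 0)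
    + (if (p ∈ S ∧ q ∉ S) ∨ (p ∉ S ∧ q ∈ S) then 4 * ‖sec ρ S w‖ ^ 2 else 0)

omit [Fintype ι] in
theorem card_symmDiff_pair {p q : ι} (hpq : p ≠ q) {S : Finset ι} (hp : p ∈ S) (hq : q ∈ S) :
    S.card = (symmDiff S {p, q}).card + 2 := by
  have h1 : symmDiff S {p, q} = S \ {p, q} := by
    ext i
    simp only [Finset.mem_symmDiff, Finset.mem_insert, Finset.mem_singleton, Finset.mem_sdiff]
    constructor
    · rintro (h | ⟨h1, h2⟩)
      · exact h
      · rcases h1 with rfl | rfl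
        · exact absurd hp h2
        · exact absurd hq h2
    · intro h; exact Or.inl h
  have h2 : ({p, q} : Finset ι) ⊆ S := by
    intro i hi
    simp only [Finset.mem_insert, Finset.mem_singleton] at hi
    rcases hi with rfl | rfl <;> assumption
  rw [h1, Finset.card_sdiff_of_subset h2, Finset.card_pair hpq]
  have := Finset.card_le_card h2
  rw [Finset.card_pair hpq] at this
  omega

omit [Fintype ι] in
theorem card_symmDiff_one {p q : ι} (hpq : p ≠ q) {S : Finset ι} (hp : p ∈ S) (hq : q ∉ S) :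
    (symmDiff S {p, q}).card = S.card := by
  have h1 : symmDiff S {p, q} = insert q (S.erase p) := by
    ext i
    simp only [Finset.mem_symmDiff, Finset.mem_insert, Finset.mem_singleton, Finset.mem_erase]
    by_cases h1 : i = p
    · subst h1; simp [hp, hpq]
    · by_cases h2 : i = q
      · subst h2; simp [hq]
      · simp [h1, h2]
  rw [h1, Finset.card_insert_of_notMem (by simp [hq]), Finset.card_erase_of_mem hp]
  have := Finset.card_pos.2 ⟨p, hp⟩
  omega

omit [Fintype ι] in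
theorem mem_symmDiff_pair {p q : ι} {S : Finset ι} :
    (p ∈ symmDiff S {p, q} ↔ p ∉ S) ∧ (q ∈ symmDiff S {p, q} ↔ q ∉ S) := by
  constructor <;>
  · simp only [Finset.mem_symmDiff, Finset.mem_insert, Finset.mem_singleton]
    tauto

/-- Both in `S`. -/
theorem pair_both (hρ : IsOrth ρ) {p q : ι} (hpq : p ≠ q) {β n : ℝ} (hβ1 : 1 ≤ β) (hβ2 : β ≤ 2)
    (hn : 0 < n) (w : V) {S : Finset ι} (hp : p ∈ S) (hq : q ∈ S) :
    β ^ S.card * ⟪sec ρ S w, tau ρ p q (sec ρ (symmDiff S {p, q}) w)⟫_ℝ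
      + β ^ (symmDiff S {p, q}).card *
        ⟪sec ρ (symmDiff S {p, q}) w, tau ρ p q (sec ρ S w)⟫_ℝ ≤
    β ^ S.card * Rb ρ n w p q S
      + β ^ (symmDiff S {p, q}).card * Rb ρ n w p q (symmDiff S {p, q}) := by
  have hc := card_symmDiff_pair hpq hp hq
  have hm := @mem_symmDiff_pair ι _ p q S
  set T := symmDiff S {p, q} with hT
  have hpT : p ∉ T := fun h => (hm.1.1 h) hp
  have hqT : q ∉ T := fun h => (hm.2.1 h) hq
  have e1 : ⟪sec ρ T w, tau ρ p q (sec ρ S w)⟫_ℝ = ⟪sec ρ S w, tau ρ p q (sec ρ T w)⟫_ℝ := by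
    rw [← tau_symm hρ, real_inner_comm]
  have e2 : ⟪sec ρ S w, tau ρ p q (sec ρ T w)⟫_ℝ ≤ ‖sec ρ S w‖ * ‖tau ρ p q (sec ρ T w)‖ :=
    real_inner_le_norm _ _
  have r1 : Rb ρ n w p q S = 40 * n / (S.card - 1) * ‖sec ρ S w‖ ^ 2 := by
    unfold Rb
    simp [hp, hq]
  have r2 : Rb ρ n w p q T = (T.card + 1) / (16 * n) * ‖tau ρ p q (sec ρ T w)‖ ^ 2 := by
    unfold Rb
    simp [hpT, hqT]
  rw [e1, r1, r2]
  have hcast : (S.card : ℝ) = T.card + 2 := by rw [hc]; push_cast; ring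
  have hpow : β ^ S.card = β ^ T.card * β ^ 2 := by rw [hc, pow_add]
  rw [hpow, hcast]
  set x := ‖sec ρ S w‖
  set y := ‖tau ρ p q (sec ρ T w)‖
  have hx : 0 ≤ x := norm_nonneg _
  have hy : 0 ≤ y := norm_nonneg _
  have hm1 : (0 : ℝ) < (T.card : ℝ) + 1 := by positivity
  have hA : 0 < 40 * n / ((T.card : ℝ) + 2 - 1) := by
    apply div_pos (by positivity); linarith
  have hAB : 40 * n / ((T.card : ℝ) + 2 - 1) * ((T.card + 1) / (16 * n)) = 5 / 2 := by
    have : (T.card : ℝ) + 2 - 1 = T.card + 1 := by ring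
    rw [this]
    field_simp
    norm_num
  have key := scalar_bound hβ1 hβ2 hA hAB hx hy
  have hβ0 : 0 < β ^ T.card := by positivity
  have h5 : (β ^ 2 + 1) * ⟪sec ρ S w, tau ρ p q (sec ρ T w)⟫_ℝ ≤ (β ^ 2 + 1) * (x * y) :=
    mul_le_mul_of_nonneg_left e2 (by positivity)
  have h6 := mul_le_mul_of_nonneg_left (h5.trans key) hβ0.le
  linarith

theorem pair_pointwise (hρ : IsOrth ρ) {p q : ι} (hpq : p ≠ q) {β n : ℝ} (hβ1 : 1 ≤ β)
    (hβ2 : β ≤ 2) (hn : 0 < n) (w : V) (S : Finset ι) :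
    β ^ S.card * ⟪sec ρ S w, tau ρ p q (sec ρ (symmDiff S {p, q}) w)⟫_ℝ
      + β ^ (symmDiff S {p, q}).card *
        ⟪sec ρ (symmDiff S {p, q}) w, tau ρ p q (sec ρ S w)⟫_ℝ ≤
    β ^ S.card * Rb ρ n w p q S
      + β ^ (symmDiff S {p, q}).card * Rb ρ n w p q (symmDiff S {p, q}) := by
  by_cases hp : p ∈ S <;> by_cases hq : q ∈ S
  · exact pair_both hρ hpq hβ1 hβ2 hn w hp hq
  · -- exactly one
    have hc := card_symmDiff_one hpq hp hq
    have hm := @mem_symmDiff_pair ι _ p q S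
    set T := symmDiff S {p, q} with hT
    have hpT : p ∉ T := fun h => (hm.1.1 h) hp
    have hqT : q ∈ T := hm.2.2 hq
    have e1 : ⟪sec ρ T w, tau ρ p q (sec ρ S w)⟫_ℝ = ⟪sec ρ S w, tau ρ p q (sec ρ T w)⟫_ℝ := by
      rw [← tau_symm hρ, real_inner_comm]
    have e2 : ⟪sec ρ S w, tau ρ p q (sec ρ T w)⟫_ℝ ≤ ‖sec ρ S w‖ * (4 * ‖sec ρ T w‖) :=
      (real_inner_le_norm _ _).trans
        (mul_le_mul_of_nonneg_left (norm_tau_le hρ _ _ _) (norm_nonneg _))
    have r1 : Rb ρ n w p q S = 4 * ‖sec ρ S w‖ ^ 2 := by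
      unfold Rb
      simp [hp, hq]
    have r2 : Rb ρ n w p q T = 4 * ‖sec ρ T w‖ ^ 2 := by
      unfold Rb
      simp [hpT, hqT]
    rw [e1, r1, r2, hc]
    have hβ0 : 0 < β ^ S.card := by positivity
    have h3 : 2 * ⟪sec ρ S w, tau ρ p q (sec ρ T w)⟫_ℝ ≤
        4 * ‖sec ρ S w‖ ^ 2 + 4 * ‖sec ρ T w‖ ^ 2 := by
      nlinarith [sq_nonneg (‖sec ρ S w‖ - ‖sec ρ T w‖)]
    have h4 := mul_le_mul_of_nonneg_left h3 hβ0.le
    linarith
  · have hc : (symmDiff S {p, q}).card = S.card := by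
      rw [Finset.pair_comm]
      exact card_symmDiff_one hpq.symm hq hp
    have hm := @mem_symmDiff_pair ι _ p q S
    set T := symmDiff S {p, q} with hT
    have hpT : p ∈ T := hm.1.2 hp
    have hqT : q ∉ T := fun h => (hm.2.1 h) hq
    have e1 : ⟪sec ρ T w, tau ρ p q (sec ρ S w)⟫_ℝ = ⟪sec ρ S w, tau ρ p q (sec ρ T w)⟫_ℝ := by
      rw [← tau_symm hρ, real_inner_comm]
    have e2 : ⟪sec ρ S w, tau ρ p q (sec ρ T w)⟫_ℝ ≤ ‖sec ρ S w‖ * (4 * ‖sec ρ T w‖) :=
      (real_inner_le_norm _ _).trans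
        (mul_le_mul_of_nonneg_left (norm_tau_le hρ _ _ _) (norm_nonneg _))
    have r1 : Rb ρ n w p q S = 4 * ‖sec ρ S w‖ ^ 2 := by
      unfold Rb
      simp [hp, hq]
    have r2 : Rb ρ n w p q T = 4 * ‖sec ρ T w‖ ^ 2 := by
      unfold Rb
      simp [hpT, hqT]
    rw [e1, r1, r2, hc]
    have hβ0 : 0 < β ^ S.card := by positivity
    have h3 : 2 * ⟪sec ρ S w, tau ρ p q (sec ρ T w)⟫_ℝ ≤
        4 * ‖sec ρ S w‖ ^ 2 + 4 * ‖sec ρ T w‖ ^ 2 := by
      nlinarith [sq_nonneg (‖sec ρ S w‖ - ‖sec ρ T w‖)]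
    have h4 := mul_le_mul_of_nonneg_left h3 hβ0.le
    linarith
  · have hm := @mem_symmDiff_pair ι _ p q S
    have hpT := hm.1.2 hp
    have hqT := hm.2.2 hq
    have key := pair_both hρ hpq hβ1 hβ2 hn w hpT hqT
    rw [symmDiff_symmDiff_cancel_right] at key
    linarith

theorem pair_sum (hρ : IsOrth ρ) {p q : ι} (hpq : p ≠ q) {β n : ℝ} (hβ1 : 1 ≤ β)
    (hβ2 : β ≤ 2) (hn : 0 < n) (w : V) :
    ∑ S : Finset ι, β ^ S.card * ⟪sec ρ S w, sec ρ S (tau ρ p q w)⟫_ℝ ≤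
      ∑ S : Finset ι, β ^ S.card * Rb ρ n w p q S := by
  have hinv : ∀ F : Finset ι → ℝ, ∑ S : Finset ι, F (symmDiff S {p, q}) = ∑ S, F S := by
    intro F
    apply Fintype.sum_equiv ⟨fun S => symmDiff S {p, q}, fun S => symmDiff S {p, q},
      fun S => symmDiff_symmDiff_cancel_right _ _, fun S => symmDiff_symmDiff_cancel_right _ _⟩
    intro S
    rfl
  have h1 := hinv (fun S => β ^ S.card * ⟪sec ρ S w, sec ρ S (tau ρ p q w)⟫_ℝ)
  have h2 := hinv (fun S => β ^ S.card * Rb ρ n w p q S)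
  have h3 : ∑ S : Finset ι, (β ^ S.card * ⟪sec ρ S w, sec ρ S (tau ρ p q w)⟫_ℝ
      + β ^ (symmDiff S {p, q}).card *
        ⟪sec ρ (symmDiff S {p, q}) w, sec ρ (symmDiff S {p, q}) (tau ρ p q w)⟫_ℝ) ≤
      ∑ S : Finset ι, (β ^ S.card * Rb ρ n w p q S
      + β ^ (symmDiff S {p, q}).card * Rb ρ n w p q (symmDiff S {p, q})) := by
    apply Finset.sum_le_sum
    intro S _
    rw [sec_tau hpq, sec_tau hpq, symmDiff_symmDiff_cancel_right]
    exact pair_pointwise hρ hpq hβ1 hβ2 hn w S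
  rw [Finset.sum_add_distrib, Finset.sum_add_distrib] at h3
  linarith

end Vale.Agent.Thorp
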