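import Vale.Agent.Thorp.Energy

/-!
# P162, the energy inequality, summed over all pairs
-/

open scoped InnerProductSpace
open Equiv

namespace Vale.Agent.Thorp

variable {V : Type*} [NormedAddCommGroup V] [InnerProductSpace ℝ V]
variable {ι : Type*} [Fintype ι] [DecidableEq ι]
variable {ρ : Perm (Bool × ι) →* (V →L[ℝ] V)}

theorem sum_ite_mem (S : Finset ι) (c : ℝ) :
    ∑ p : ι, (if p ∈ S then c else 0) = S.card * c := by
  rw [Finset.sum_ite_mem, Finset.univ_inter, Finset.sum_const, nsmul_eq_mul]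

theorem sum_both (S : Finset ι) (c : ℝ) :
    ∑ p : ι, ∑ q : ι, (if p = q then 0 else (if p ∈ S ∧ q ∈ S then c else 0)) =
      S.card * (S.card - 1) * c := by
  have h1 : ∀ p q : ι, (if p = q then (0 : ℝ) else (if p ∈ S ∧ q ∈ S then c else 0)) =
      (if p ∈ S ∧ q ∈ S then c else 0) - (if p = q then (if p ∈ S ∧ q ∈ S then c else 0) else 0) := by
    intro p q
    split_ifs <;> simp
  simp_rw [h1, Finset.sum_sub_distrib, Finset.sum_ite_eq, Finset.mem_univ, if_true, and_self]
  have h2 : ∀ p q : ι, (if p ∈ S ∧ q ∈ S then c else 0) =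
      (if p ∈ S then (if q ∈ S then c else 0) else 0) := by
    intro p q
    by_cases hp : p ∈ S <;> by_cases hq : q ∈ S <;> simp [hp, hq]
  simp_rw [h2]
  have h3 : ∀ p : ι, ∑ q : ι, (if p ∈ S then (if q ∈ S then c else 0) else 0) =
      (if p ∈ S then S.card * c else 0) := by
    intro p
    split_ifs
    · exact sum_ite_mem S c
    · simp
  simp_rw [h3]
  rw [sum_ite_mem, sum_ite_mem]
  ring

theorem sum_Rb_le (hρ : IsOrth ρ) {n : ℝ} (hn : n = 2 * Fintype.card ι) (hn0 : 0 < n) (w : V)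
    (S : Finset ι) :
    ∑ p : ι, ∑ q : ι, (if p = q then 0 else Rb ρ n w p q S) ≤
      45 * n * (S.card * ‖sec ρ S w‖ ^ 2) + 1 / n * ⟪sec ρ S w, lap ρ (sec ρ S w)⟫_ℝ := by
  set x := ‖sec ρ S w‖ ^ 2 with hx
  set L := ⟪sec ρ S w, lap ρ (sec ρ S w)⟫_ℝ with hL
  have hx0 : 0 ≤ x := by positivity
  set m : ℝ := (S.card : ℝ) with hm
  have hm0 : 0 ≤ m := by positivity
  have hsplit : ∀ p q : ι, (if p = q then 0 else Rb ρ n w p q S) ≤
      (if p = q then 0 else (if p ∈ S ∧ q ∈ S then 40 * n / (m - 1) * x else 0))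
      + (m + 1) / (16 * n) * ‖tau ρ p q (sec ρ S w)‖ ^ 2
      + ((if p ∈ S then 4 * x else 0) + (if q ∈ S then 4 * x else 0)) := by
    intro p q
    have ht : 0 ≤ (m + 1) / (16 * n) * ‖tau ρ p q (sec ρ S w)‖ ^ 2 := by positivity
    by_cases hpq : p = q
    · rw [if_pos hpq, if_pos hpq]
      have : 0 ≤ (if p ∈ S then 4 * x else 0) := by split_ifs <;> positivity
      have : 0 ≤ (if q ∈ S then 4 * x else 0) := by split_ifs <;> positivity
      linarith
    · rw [if_neg hpq, if_neg hpq]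
      unfold Rb
      by_cases hp : p ∈ S <;> by_cases hq : q ∈ S
      · simp only [hp, hq, and_self, not_true, and_false, false_and, or_self, if_true, if_false,
          add_zero]
        linarith
      · simp only [hp, hq, and_false, not_true, not_false_iff, and_true, and_self,
          if_true, if_false, or_false, zero_add, add_zero]
        linarith
      · simp only [hp, hq, and_false, not_true, not_false_iff, and_true, and_self,
          if_true, if_false, false_or, zero_add, add_zero]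
        linarith
      · simp only [hp, hq, and_false, not_false_iff, and_self, and_true,
          if_true, if_false, or_self, zero_add, add_zero]
        linarith
  refine (Finset.sum_le_sum fun p _ => Finset.sum_le_sum fun q _ => hsplit p q).trans ?_
  simp_rw [Finset.sum_add_distrib]
  rw [sum_both]
  have h2 : ∑ p : ι, ∑ q : ι, (m + 1) / (16 * n) * ‖tau ρ p q (sec ρ S w)‖ ^ 2 ≤
      (m + 1) / n * L := by
    simp_rw [← Finset.mul_sum]
    have := sum_norm_sq_tau_le hρ (sec ρ S w)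
    calc (m + 1) / (16 * n) * ∑ p, ∑ q, ‖tau ρ p q (sec ρ S w)‖ ^ 2 ≤
          (m + 1) / (16 * n) * (16 * L) := by gcongr
      _ = (m + 1) / n * L := by field_simp
  have h3 : ∑ p : ι, ∑ _q : ι, (if p ∈ S then 4 * x else 0) = 2 * n * (m * x) := by
    simp_rw [Finset.sum_const, Finset.card_univ, nsmul_eq_mul, ← Finset.mul_sum]
    rw [sum_ite_mem, hn]
    ring
  have h4 : ∑ _p : ι, ∑ q : ι, (if q ∈ S then 4 * x else 0) = 2 * n * (m * x) := by
    rw [sum_ite_mem, Finset.sum_const, Finset.card_univ, nsmul_eq_mul, hn]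
    ring
  rw [h3, h4]
  have h5 : L ≤ n ^ 2 * x := by
    have h := lap_le hρ (sec ρ S w)
    have hc : (Fintype.card (Bool × ι) : ℝ) = n := by
      rw [Fintype.card_prod, Fintype.card_bool, hn]; push_cast; ring
    rw [hc] at h
    exact h
  have h6 : (m + 1) / n * L ≤ n * (m * x) + 1 / n * L := by
    have e : (m + 1) / n * L = m / n * L + 1 / n * L := by ring
    rw [e]
    have : m / n * L ≤ m / n * (n ^ 2 * x) := by gcongr
    have e2 : m / n * (n ^ 2 * x) = n * (m * x) := by field_simp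
    linarith
  have h7 : m * (m - 1) * (40 * n / (m - 1) * x) ≤ 40 * n * (m * x) := by
    by_cases h1 : m - 1 = 0
    · rw [h1]
      simp only [mul_zero, zero_mul]
      positivity
    · have : m * (m - 1) * (40 * n / (m - 1) * x) = 40 * n * (m * x) := by field_simp
      rw [this]
  linarith

/-- The energy inequality. -/
theorem energy (hρ : IsOrth ρ) {n : ℝ} (hn : n = 2 * Fintype.card ι) (hn2 : 2 ≤ n) {β : ℝ}
    (hβ1 : 1 ≤ β) (hβ2 : β ≤ 2) (w : V) :
    ∑ S : Finset ι, β ^ S.card * ∑ p : ι, ∑ q : ι, ⟪sec ρ S w, sec ρ S (tau ρ p q w)⟫_ℝ ≤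
      ∑ S : Finset ι, β ^ S.card * (47 * n * (S.card * ‖sec ρ S w‖ ^ 2)
        + 1 / n * ⟪sec ρ S w, lap ρ (sec ρ S w)⟫_ℝ) := by
  have hn0 : 0 < n := by linarith
  have hdiag : ∀ S : Finset ι, ∑ p : ι, ∑ q : ι, ⟪sec ρ S w, sec ρ S (tau ρ p q w)⟫_ℝ =
      4 * (S.card * ‖sec ρ S w‖ ^ 2) + ∑ p : ι, ∑ q : ι,
        (if p = q then 0 else ⟪sec ρ S w, sec ρ S (tau ρ p q w)⟫_ℝ) := by
    intro S
    have h1 : ∀ p q : ι, ⟪sec ρ S w, sec ρ S (tau ρ p q w)⟫_ℝ =
        (if p = q then (if p ∈ S then 4 * ‖sec ρ S w‖ ^ 2 else 0) else 0) +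
        (if p = q then 0 else ⟪sec ρ S w, sec ρ S (tau ρ p q w)⟫_ℝ) := by
      intro p q
      by_cases hpq : p = q
      · subst hpq
        rw [if_pos rfl, if_pos rfl, sec_tau_diag, inner_smul_right, real_inner_self_eq_norm_sq]
        split_ifs <;> simp
      · rw [if_neg hpq, if_neg hpq, zero_add]
    have h2 : ∑ p : ι, ∑ q : ι, ⟪sec ρ S w, sec ρ S (tau ρ p q w)⟫_ℝ =
        ∑ p : ι, ∑ q : ι, ((if p = q then (if p ∈ S then 4 * ‖sec ρ S w‖ ^ 2 else 0) else 0) +
        (if p = q then 0 else ⟪sec ρ S w, sec ρ S (tau ρ p q w)⟫_ℝ)) :=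
      Finset.sum_congr rfl fun p _ => Finset.sum_congr rfl fun q _ => h1 p q
    rw [h2]
    simp_rw [Finset.sum_add_distrib, Finset.sum_ite_eq, Finset.mem_univ, if_true]
    rw [sum_ite_mem]
    ring
  have hoff : ∑ S : Finset ι, β ^ S.card * ∑ p : ι, ∑ q : ι,
      (if p = q then 0 else ⟪sec ρ S w, sec ρ S (tau ρ p q w)⟫_ℝ) ≤
      ∑ S : Finset ι, β ^ S.card * ∑ p : ι, ∑ q : ι, (if p = q then 0 else Rb ρ n w p q S) := by
    have hcomm : ∀ F : Finset ι → ι → ι → ℝ, ∑ S : Finset ι, β ^ S.card * ∑ p : ι, ∑ q : ι,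
        (if p = q then 0 else F S p q) =
        ∑ p : ι, ∑ q : ι, (if p = q then 0 else ∑ S : Finset ι, β ^ S.card * F S p q) := by
      intro F
      simp_rw [Finset.mul_sum]
      rw [Finset.sum_comm]
      apply Finset.sum_congr rfl
      intro p _
      rw [Finset.sum_comm]
      apply Finset.sum_congr rfl
      intro q _
      split_ifs
      · simp
      · rfl
    rw [hcomm, hcomm]
    apply Finset.sum_le_sum
    intro p _
    apply Finset.sum_le_sum
    intro q _
    split_ifs with hpq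
    · exact le_rfl
    · exact pair_sum hρ hpq hβ1 hβ2 hn0 w
  calc ∑ S : Finset ι, β ^ S.card * ∑ p : ι, ∑ q : ι, ⟪sec ρ S w, sec ρ S (tau ρ p q w)⟫_ℝ
      = ∑ S : Finset ι, β ^ S.card * (4 * (S.card * ‖sec ρ S w‖ ^ 2)) +
        ∑ S : Finset ι, β ^ S.card * ∑ p : ι, ∑ q : ι,
        (if p = q then 0 else ⟪sec ρ S w, sec ρ S (tau ρ p q w)⟫_ℝ) := by
        rw [← Finset.sum_add_distrib]
        apply Finset.sum_congr rfl
        intro S _
        rw [hdiag S]; ring
    _ ≤ ∑ S : Finset ι, β ^ S.card * (4 * (S.card * ‖sec ρ S w‖ ^ 2)) +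
        ∑ S : Finset ι, β ^ S.card * (45 * n * (S.card * ‖sec ρ S w‖ ^ 2)
          + 1 / n * ⟪sec ρ S w, lap ρ (sec ρ S w)⟫_ℝ) := by
        refine add_le_add le_rfl ?_
        refine hoff.trans ?_
        apply Finset.sum_le_sum
        intro S _
        apply mul_le_mul_of_nonneg_left (sum_Rb_le hρ hn hn0 w S) (by positivity)
    _ = ∑ S : Finset ι, β ^ S.card * (4 * (S.card * ‖sec ρ S w‖ ^ 2) +
          (45 * n * (S.card * ‖sec ρ S w‖ ^ 2)
          + 1 / n * ⟪sec ρ S w, lap ρ (sec ρ S w)⟫_ℝ)) := by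
        rw [← Finset.sum_add_distrib]
        apply Finset.sum_congr rfl
        intro S _
        ring
    _ ≤ _ := by
        apply Finset.sum_le_sum
        intro S _
        apply mul_le_mul_of_nonneg_left _ (by positivity)
        have : 0 ≤ (S.card : ℝ) * ‖sec ρ S w‖ ^ 2 := by positivity
        nlinarith

end Vale.Agent.Thorp
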