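import Vale.Agent.Thorp.Energy2

/-!
# P162, contraction of one pass over the cube
-/

open scoped InnerProductSpace
open Equiv

namespace Vale.Agent.Thorp

variable {V : Type*} [NormedAddCommGroup V] [InnerProductSpace ℝ V]

section commute

variable {X : Type*} {ρ : Perm X →* (V →L[ℝ] V)} {T : V →L[ℝ] V}

theorem commute_lap [Fintype X] [DecidableEq X] (h : ∀ g, Commute T (ρ g)) :
    Commute T (lap ρ) := by
  unfold lap
  apply Commute.smul_right
  apply Commute.sum_right
  intro x _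
  apply Commute.sum_right
  intro y _
  exact (Commute.one_right T).sub_right (h _)

theorem lap_commute [Fintype X] [DecidableEq X] (g : Perm X) : Commute (lap ρ) (ρ g) :=
  (rep_lap g).symm

theorem commute_avg {ι : Type*} [Fintype ι] [DecidableEq ι] {ρ : Perm (Bool × ι) →* (V →L[ℝ] V)}
    (h : ∀ g, Commute T (ρ g)) : Commute T (avg ρ) := by
  unfold avg
  apply Commute.smul_right
  apply Commute.sum_right
  intro c _
  exact h _

theorem commute_lap2 {ι : Type*} [Fintype ι] [DecidableEq ι]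
    {ρ : Perm (Bool × ι) →* (V →L[ℝ] V)} (h : ∀ g, Commute T (ρ g)) : Commute T (lap2 ρ) :=
  (commute_lap fun g => h (half false g)).add_right (commute_lap fun g => h (half true g))

theorem commute_pass (m : ℕ) : ∀ {ρ : Perm (Cube m) →* (V →L[ℝ] V)},
    (∀ g, Commute T (ρ g)) → Commute T (pass m ρ) := by
  induction m with
  | zero => intro ρ _; exact Commute.one_right T
  | succ m ih =>
    intro ρ h
    exact ((ih fun g => h (half false g)).mul_right (ih fun g => h (half true g))).mul_right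
      (commute_avg (ι := Cube m) h)

end commute

section flow

theorem exp_add_comm [CompleteSpace V] {A B : V →L[ℝ] V} (h : Commute A B) :
    (NormedSpace.exp (A + B) : V →L[ℝ] V) = NormedSpace.exp A * NormedSpace.exp B := by
  let _ : NormedAlgebra ℚ (V →L[ℝ] V) := NormedAlgebra.restrictScalars ℚ ℝ _
  exact NormedSpace.exp_add_of_commute h

theorem hasDerivAt_flow [CompleteSpace V] (A : V →L[ℝ] V) (v : V) (u : ℝ) :
    HasDerivAt (fun u : ℝ => (NormedSpace.exp (u • A)) v)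
      (A ((NormedSpace.exp (u • A)) v)) u := by
  have h := (hasDerivAt_exp_smul_const' (𝕂 := ℝ) A u).clm_apply (hasDerivAt_const u v)
  simpa using h

theorem exp_lap_le [CompleteSpace V] {X : Type*} [Fintype X] [DecidableEq X]
    {ρ : Perm X →* (V →L[ℝ] V)} (hρ : IsOrth ρ) {c : ℝ} (hc : 0 ≤ c) (v : V) :
    ‖(NormedSpace.exp (-c • lap ρ)) v‖ ≤ ‖v‖ := by
  have hd : ∀ u : ℝ, HasDerivAt (fun u : ℝ => ‖(NormedSpace.exp (u • (-lap ρ))) v‖ ^ 2)
      (2 * ⟪(NormedSpace.exp (u • (-lap ρ))) v,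
        (-lap ρ) ((NormedSpace.exp (u • (-lap ρ))) v)⟫_ℝ) u := fun u =>
    (hasDerivAt_flow (-lap ρ) v u).norm_sq
  have hanti : AntitoneOn (fun u : ℝ => ‖(NormedSpace.exp (u • (-lap ρ))) v‖ ^ 2)
      (Set.Ici 0) := by
    apply antitoneOn_of_deriv_nonpos (convex_Ici 0)
    · exact fun u _ => (hd u).continuousAt.continuousWithinAt
    · exact fun u _ => (hd u).differentiableAt.differentiableWithinAt
    · intro u _
      rw [(hd u).deriv]
      have := lap_nonneg hρ ((NormedSpace.exp (u • (-lap ρ))) v)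
      have e : (-lap ρ) ((NormedSpace.exp (u • (-lap ρ))) v) =
          -(lap ρ ((NormedSpace.exp (u • (-lap ρ))) v)) := rfl
      rw [e, inner_neg_right]
      linarith
  have h := hanti (Set.mem_Ici.2 le_rfl) (Set.mem_Ici.2 hc) hc
  simp only [zero_smul, NormedSpace.exp_zero] at h
  have h2 : ‖(NormedSpace.exp (c • (-lap ρ))) v‖ ^ 2 ≤ ‖v‖ ^ 2 := by simpa using h
  have e : -c • lap ρ = c • (-lap ρ) := by rw [neg_smul, smul_neg]
  rw [e]
  exact (sq_le_sq₀ (norm_nonneg _) (norm_nonneg _)).1 h2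

theorem exp_lap_mono [CompleteSpace V] {X : Type*} [Fintype X] [DecidableEq X]
    {ρ : Perm X →* (V →L[ℝ] V)} (hρ : IsOrth ρ) {a b : ℝ} (hab : a ≤ b) (v : V) :
    ‖(NormedSpace.exp (-b • lap ρ)) v‖ ≤ ‖(NormedSpace.exp (-a • lap ρ)) v‖ := by
  have e : -b • lap ρ = -(b - a) • lap ρ + -a • lap ρ := by
    rw [← add_smul]; congr 1; ring
  have hcomm : Commute (-(b - a) • lap ρ) (-a • lap ρ) :=
    ((Commute.refl (lap ρ)).smul_left _).smul_right _
  rw [e, exp_add_comm hcomm]
  exact exp_lap_le hρ (sub_nonneg.2 hab) _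

theorem norm_avg_le {ι : Type*} [Fintype ι] [DecidableEq ι] {ρ : Perm (Bool × ι) →* (V →L[ℝ] V)}
    (hρ : IsOrth ρ) (v : V) : ‖avg ρ v‖ ≤ ‖v‖ := by
  have h : avg ρ v = ((2 : ℝ) ^ Fintype.card ι)⁻¹ • ∑ c : ι → Bool, ρ (flipPerm c) v := by
    simp [avg]
  rw [h, norm_smul, Real.norm_of_nonneg (by positivity)]
  have h2 : ‖∑ c : ι → Bool, ρ (flipPerm c) v‖ ≤ ∑ _c : ι → Bool, ‖v‖ := by
    refine (norm_sum_le _ _).trans (Finset.sum_le_sum fun c _ => ?_)
    rw [hρ]
  rw [Finset.sum_const, Finset.card_univ, Fintype.card_fun, Fintype.card_bool,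
    nsmul_eq_mul] at h2
  push_cast at h2
  calc ((2 : ℝ) ^ Fintype.card ι)⁻¹ * ‖∑ c : ι → Bool, ρ (flipPerm c) v‖ ≤
        ((2 : ℝ) ^ Fintype.card ι)⁻¹ * (2 ^ Fintype.card ι * ‖v‖) := by gcongr
    _ = ‖v‖ := by rw [← mul_assoc, inv_mul_cancel₀ (by positivity), one_mul]

end flow

section main

variable {ι : Type*} [Fintype ι] [DecidableEq ι] {ρ : Perm (Bool × ι) →* (V →L[ℝ] V)}

theorem sec_lap (S : Finset ι) (v : V) : sec ρ S (lap ρ v) = lap ρ (sec ρ S v) := by
  rw [sec_apply, sec_apply, map_smul, map_sum]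
  congr 1
  apply Finset.sum_congr rfl
  intro c _
  rw [map_smul, rep_lap_apply]

/-- The generator of the comparison flow. -/
noncomputable def gen (ρ : Perm (Bool × ι) →* (V →L[ℝ] V)) (n : ℝ) : V →L[ℝ] V :=
  (1 / n - 1 / (2 * n ^ 2)) • lap ρ + (-(2 / n)) • lap2 ρ

theorem gen_apply {n : ℝ} (v : V) : gen ρ n v =
    (1 / (2 * n)) • ∑ p, ∑ q, tau ρ p q v - (1 / (2 * n ^ 2)) • lap ρ v := by
  have h := lap_sub_lap2 (ρ := ρ) v
  have h2 : ∑ p, ∑ q, tau ρ p q v = (2 : ℝ) • (lap ρ v - (2 : ℝ) • lap2 ρ v) := by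
    rw [h, smul_smul]; norm_num
  rw [h2]
  have h3 : gen ρ n v = (1 / n - 1 / (2 * n ^ 2)) • lap ρ v + (-(2 / n)) • lap2 ρ v := rfl
  rw [h3]
  module

theorem inner_gen {n : ℝ} (S : Finset ι) (w : V) :
    ⟪sec ρ S w, sec ρ S (gen ρ n w)⟫_ℝ =
      1 / (2 * n) * ∑ p, ∑ q, ⟪sec ρ S w, sec ρ S (tau ρ p q w)⟫_ℝ
        - 1 / (2 * n ^ 2) * ⟪sec ρ S w, lap ρ (sec ρ S w)⟫_ℝ := by
  rw [gen_apply, map_sub, map_smul, map_smul, sec_lap, inner_sub_right, inner_smul_right,
    inner_smul_right, map_sum, inner_sum]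
  simp_rw [map_sum, inner_sum]

theorem flow_le [CompleteSpace V] (hρ : IsOrth ρ) {n : ℝ} (hn : n = 2 * Fintype.card ι)
    (hn2 : 2 ≤ n) {u : ℝ} (hu0 : 0 ≤ u) (hu1 : u ≤ 1 / 72) (v₀ : V) :
    ‖(NormedSpace.exp (u • gen ρ n)) (avg ρ v₀)‖ ≤ ‖avg ρ v₀‖ := by
  have hn0 : n ≠ 0 := by linarith
  set w : ℝ → V := fun t => (NormedSpace.exp (t • gen ρ n)) (avg ρ v₀) with hw
  have hwd : ∀ t, HasDerivAt w (gen ρ n (w t)) t := fun t => hasDerivAt_flow _ _ t
  set β : ℝ → ℝ := fun t => 2 * Real.exp (-48 * t) with hβ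
  have hβd : ∀ t, HasDerivAt β (-48 * β t) t := by
    intro t
    have h1 : HasDerivAt (fun t : ℝ => -48 * t) (-48) t := by
      simpa using (hasDerivAt_id t).const_mul (-48)
    have h2 := (h1.exp).const_mul 2
    have e : -48 * β t = 2 * (Real.exp (-48 * t) * -48) := by simp only [hβ]; ring
    rw [e]
    exact h2
  have hβpow : ∀ (m : ℕ) t, HasDerivAt (fun t => β t ^ m) (-48 * m * β t ^ m) t := by
    intro m t
    have h := (hβd t).pow m
    cases m with
    | zero => simpa using hasDerivAt_const t (1 : ℝ)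
    | succ m =>
      have e : -48 * ((m + 1 : ℕ) : ℝ) * β t ^ (m + 1) =
          ((m + 1 : ℕ) : ℝ) * β t ^ (m + 1 - 1) * (-48 * β t) := by
        rw [Nat.add_sub_cancel, pow_succ]; ring
      rw [e]
      exact h
  set Ψ : ℝ → ℝ := fun t => ∑ S : Finset ι, β t ^ S.card * ‖sec ρ S (w t)‖ ^ 2 with hΨ
  have hΨd : ∀ t, HasDerivAt Ψ (∑ S : Finset ι, (-48 * S.card * β t ^ S.card *
      ‖sec ρ S (w t)‖ ^ 2 + β t ^ S.card *
        (2 * ⟪sec ρ S (w t), sec ρ S (gen ρ n (w t))⟫_ℝ))) t := by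
    intro t
    apply HasDerivAt.fun_sum
    intro S _
    apply (hβpow S.card t).mul
    exact ((sec ρ S).hasFDerivAt.comp_hasDerivAt t (hwd t)).norm_sq
  have hβ1 : ∀ t, t ≤ 1 / 72 → 1 ≤ β t := by
    intro t ht
    have h1 : Real.exp (-(2 / 3)) ≤ Real.exp (-48 * t) := Real.exp_le_exp.2 (by linarith)
    have h2 : (1 : ℝ) / 2 ≤ Real.exp (-(2 / 3)) := by
      rw [Real.exp_neg, one_div]
      apply inv_anti₀ (Real.exp_pos _)
      rw [← Real.le_log_iff_exp_le (by norm_num)]
      linarith [Real.log_two_gt_d9]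
    simp only [hβ]
    linarith
  have hβ2 : ∀ t, 0 ≤ t → β t ≤ 2 := by
    intro t ht
    have : Real.exp (-48 * t) ≤ 1 := Real.exp_le_one_iff.2 (by linarith)
    simp only [hβ]
    linarith
  have hanti : AntitoneOn Ψ (Set.Icc 0 (1 / 72)) := by
    apply antitoneOn_of_deriv_nonpos (convex_Icc 0 (1 / 72))
    · exact fun t _ => (hΨd t).continuousAt.continuousWithinAt
    · exact fun t _ => (hΨd t).differentiableAt.differentiableWithinAt
    · intro t ht
      rw [interior_Icc, Set.mem_Ioo] at ht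
      rw [(hΨd t).deriv]
      have hE := energy hρ hn hn2 (hβ1 t ht.2.le) (hβ2 t ht.1.le) (w t)
      have e : ∑ S : Finset ι, (-48 * S.card * β t ^ S.card * ‖sec ρ S (w t)‖ ^ 2 +
          β t ^ S.card * (2 * ⟪sec ρ S (w t), sec ρ S (gen ρ n (w t))⟫_ℝ)) =
          1 / n * ∑ S : Finset ι, β t ^ S.card *
            ∑ p : ι, ∑ q : ι, ⟪sec ρ S (w t), sec ρ S (tau ρ p q (w t))⟫_ℝ -
          1 / n * ∑ S : Finset ι, β t ^ S.card * (48 * n * (S.card * ‖sec ρ S (w t)‖ ^ 2)
            + 1 / n * ⟪sec ρ S (w t), lap ρ (sec ρ S (w t))⟫_ℝ) := by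
        rw [← mul_sub, ← Finset.sum_sub_distrib, Finset.mul_sum]
        apply Finset.sum_congr rfl
        intro S _
        rw [inner_gen]
        field_simp
        ring
      rw [e, ← mul_sub]
      apply mul_nonpos_of_nonneg_of_nonpos (by positivity)
      rw [sub_nonpos]
      refine hE.trans ?_
      apply Finset.sum_le_sum
      intro S _
      have hb : 0 ≤ β t := by linarith [hβ1 t ht.2.le]
      apply mul_le_mul_of_nonneg_left _ (by positivity)
      have : 0 ≤ (S.card : ℝ) * ‖sec ρ S (w t)‖ ^ 2 := by positivity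
      nlinarith
  have h := hanti (Set.mem_Icc.2 ⟨le_rfl, by norm_num⟩) (Set.mem_Icc.2 ⟨hu0, hu1⟩) hu0
  have hΨ0 : Ψ 0 = ‖avg ρ v₀‖ ^ 2 := by
    have hw0 : w 0 = avg ρ v₀ := by simp [hw, NormedSpace.exp_zero]
    simp only [hΨ, hw0]
    rw [Finset.sum_eq_single ∅]
    · rw [← sec_empty, sec_sec, if_pos rfl]
      simp
    · intro S _ hS
      rw [← sec_empty, sec_sec, if_neg hS]
      simp
    · intro h'
      exact absurd (Finset.mem_univ _) h'
  have hΨu : ‖w u‖ ^ 2 ≤ Ψ u := by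
    rw [norm_sq_eq_sum_sec hρ]
    apply Finset.sum_le_sum
    intro S _
    have h1 : 1 ≤ β u ^ S.card := one_le_pow₀ (hβ1 u hu1)
    have h2 : 0 ≤ ‖sec ρ S (w u)‖ ^ 2 := by positivity
    nlinarith
  have h3 : ‖w u‖ ^ 2 ≤ ‖avg ρ v₀‖ ^ 2 := by
    rw [← hΨ0]; exact hΨu.trans h
  exact (sq_le_sq₀ (norm_nonneg _) (norm_nonneg _)).1 h3

theorem main_lemma [CompleteSpace V] (hρ : IsOrth ρ) {n : ℝ} (hn : n = 2 * Fintype.card ι)
    (hn2 : 2 ≤ n) {u : ℝ} (hu0 : 0 ≤ u) (hu1 : u ≤ 1 / 72) (v₀ : V) :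
    ‖(NormedSpace.exp (-(2 * u / n) • lap2 ρ)) (avg ρ v₀)‖ ≤
      ‖(NormedSpace.exp (-(u / n * (1 - 1 / (2 * n))) • lap ρ)) (avg ρ v₀)‖ := by
  have hn0 : n ≠ 0 := by linarith
  set c : ℝ := u / n * (1 - 1 / (2 * n)) with hc
  set E := (NormedSpace.exp (-c • lap ρ) : V →L[ℝ] V) with hE
  have hcl : ∀ g, Commute (lap ρ) (ρ g) := lap_commute
  have hEa : Commute E (avg ρ) := by
    apply commute_avg
    intro g
    exact ((hcl g).smul_left (-c)).exp_left
  have h1 : E (avg ρ v₀) = avg ρ (E v₀) := congrArg (fun T : V →L[ℝ] V => T v₀) hEa.eq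
  have key := flow_le hρ hn hn2 hu0 hu1 (E v₀)
  have e1 : u • gen ρ n = -(2 * u / n) • lap2 ρ + c • lap ρ := by
    rw [gen, smul_add, smul_smul, smul_smul, add_comm, hc]
    congr 1
    · congr 1; field_simp
    · congr 1; field_simp
  have hcomm : Commute (-(2 * u / n) • lap2 ρ) (c • lap ρ) :=
    (((commute_lap2 hcl).symm).smul_left _).smul_right _
  have hcancel : Commute (c • lap ρ) (-c • lap ρ) :=
    ((Commute.refl (lap ρ)).smul_left _).smul_right _
  have e2 : (NormedSpace.exp (c • lap ρ) : V →L[ℝ] V) * E = 1 := by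
    rw [hE, ← exp_add_comm hcancel, ← add_smul, add_neg_cancel, zero_smul,
      NormedSpace.exp_zero]
  rw [← h1, e1, exp_add_comm hcomm] at key
  have e3 : ((NormedSpace.exp (-(2 * u / n) • lap2 ρ) : V →L[ℝ] V) *
      NormedSpace.exp (c • lap ρ)) (E (avg ρ v₀)) =
      (NormedSpace.exp (-(2 * u / n) • lap2 ρ)) (avg ρ v₀) := by
    change (NormedSpace.exp (-(2 * u / n) • lap2 ρ) : V →L[ℝ] V)
      (((NormedSpace.exp (c • lap ρ) : V →L[ℝ] V) * E) (avg ρ v₀)) = _
    rw [e2]
    rfl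
  rw [e3] at key
  exact key

end main

section pass

theorem card_cube (m : ℕ) : Fintype.card (Cube m) = 2 ^ m := by
  induction m with
  | zero => exact Fintype.card_unit
  | succ m ih =>
    have : Fintype.card (Cube (m + 1)) = Fintype.card (Bool × Cube m) := rfl
    rw [this, Fintype.card_prod, Fintype.card_bool, ih, pow_succ]
    ring

theorem half_commute {ι : Type*} (σ τ : Perm ι) :
    Commute (half false σ) (half true τ) := by
  apply Equiv.ext
  rintro ⟨b, i⟩
  cases b <;> rfl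

/-- Contraction of one pass over the cube. -/
theorem pass_bound (m : ℕ) : ∀ {V : Type*} [NormedAddCommGroup V] [InnerProductSpace ℝ V]
    [CompleteSpace V] {ρ : Perm (Cube m) →* (V →L[ℝ] V)}, IsOrth ρ → ∀ v : V,
    ‖pass m ρ v‖ ≤
      ‖(NormedSpace.exp (-((1 + (1 / 2) ^ m) / 144 / 2 ^ m : ℝ) • lap ρ)) v‖ := by
  induction m with
  | zero =>
    intro V _ _ _ ρ hρ v
    have h0 : lap ρ = 0 := by
      ext v
      rw [lap_apply]
      have : ∀ x y : Cube 0, v - ρ (swap x y) v = 0 := by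
        intro x y
        have hxy : x = y := Subsingleton.elim (α := Unit) x y
        subst hxy
        rw [swap_self]
        have : ρ (Equiv.refl (Cube 0)) v = v := rep_one_apply v
        rw [this, sub_self]
      simp [this]
    rw [h0, smul_zero, NormedSpace.exp_zero]
    exact le_rfl
  | succ m ih =>
    intro V _ _ _ ρ hρ v
    set a : ℝ := (1 / 2) ^ m with ha
    have ha0 : 0 < a := by positivity
    have ha1 : a ≤ 1 := pow_le_one₀ (by norm_num) (by norm_num)
    set u : ℝ := (1 + a) / 144 with hu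
    have hu0 : 0 ≤ u := by positivity
    have hu1 : u ≤ 1 / 72 := by rw [hu]; linarith
    set n : ℝ := 2 ^ (m + 1) with hn
    have hnc : n = 2 * (Fintype.card (Cube m) : ℝ) := by
      rw [card_cube, hn, pow_succ]; push_cast; ring
    have hna : n * a = 2 := by
      rw [hn, ha, pow_succ]
      have : (2 : ℝ) ^ m * (1 / 2) ^ m = 1 := by rw [← mul_pow]; norm_num
      linear_combination 2 * this
    have hn2 : 2 ≤ n := by nlinarith
    have hn0 : 0 < n := by linarith
    have h2m : (2 : ℝ) ^ m = n / 2 := by rw [hn, pow_succ]; ring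
    have hρf : IsOrth (ρ.comp (half false)) := hρ.comp _
    have hρt : IsOrth (ρ.comp (half true)) := hρ.comp _
    set y := avg (ι := Cube m) ρ v with hy
    set s : ℝ := u / 2 ^ m with hs
    set Ef := (NormedSpace.exp (-s • lap (ρ.comp (half false))) : V →L[ℝ] V) with hEf
    set Et := (NormedSpace.exp (-s • lap (ρ.comp (half true))) : V →L[ℝ] V) with hEt
    have hft : ∀ σ τ : Perm (Cube m), Commute (ρ (half false σ)) (ρ (half true τ)) := by
      intro σ τ
      exact (half_commute σ τ).map ρ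
    have c1 : ∀ τ : Perm (Cube m), Commute (lap (ρ.comp (half false))) (ρ (half true τ)) :=
      fun τ => (commute_lap (ρ := ρ.comp (half false)) (T := ρ (half true τ))
        fun σ => (hft σ τ).symm).symm
    have c2 : Commute Ef (pass m (ρ.comp (half true))) := by
      apply commute_pass
      intro τ
      exact ((c1 τ).smul_left (-s)).exp_left
    have c3 : Commute (lap (ρ.comp (half false))) (lap (ρ.comp (half true))) :=
      commute_lap fun τ => c1 τ
    have s1 : ‖pass (m + 1) ρ v‖ ≤ ‖Ef (pass m (ρ.comp (half true)) y)‖ := by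
      have h := ih hρf (pass m (ρ.comp (half true)) y)
      exact h
    have s2 : Ef (pass m (ρ.comp (half true)) y) = pass m (ρ.comp (half true)) (Ef y) :=
      congrArg (fun T : V →L[ℝ] V => T y) c2.eq
    have s3 : ‖pass m (ρ.comp (half true)) (Ef y)‖ ≤ ‖Et (Ef y)‖ := ih hρt (Ef y)
    have s4 : Et (Ef y) = (NormedSpace.exp (-(2 * u / n) • lap2 (ι := Cube m) ρ)) y := by
      have hcomm : Commute (-s • lap (ρ.comp (half true))) (-s • lap (ρ.comp (half false))) :=
        ((c3.symm).smul_left _).smul_right _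
      have e1 : -(2 * u / n) • lap2 (ι := Cube m) ρ =
          -s • lap (ρ.comp (half true)) + -s • lap (ρ.comp (half false)) := by
        have : s = 2 * u / n := by rw [hs, h2m]; field_simp
        have e0 : lap2 (ι := Cube m) ρ =
            lap (ρ.comp (half false)) + lap (ρ.comp (half true)) := rfl
        rw [← this, e0, smul_add, add_comm]
      rw [e1, exp_add_comm hcomm]
      rfl
    have s5 := main_lemma (ι := Cube m) hρ hnc hn2 hu0 hu1 v
    have s6 : ‖(NormedSpace.exp (-(u / n * (1 - 1 / (2 * n))) • lap (X := Bool × Cube m) ρ)) y‖ ≤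
        ‖(NormedSpace.exp (-((1 + (1 / 2) ^ (m + 1)) / 144 / 2 ^ (m + 1) : ℝ) •
          lap (X := Bool × Cube m) ρ)) y‖ := by
      apply exp_lap_mono (X := Bool × Cube m) hρ
      have e1 : (1 / 2 : ℝ) ^ (m + 1) = 1 / n := by
        rw [hn, one_div_pow]
      rw [e1, ← hn]
      have e2 : a = 2 / n := by
        rw [eq_div_iff hn0.ne']; linarith
      have e3 : u / n * (1 - 1 / (2 * n)) - (1 + 1 / n) / 144 / n =
          (1 / 144 / n) * ((1 + 2 / n) * (1 - 1 / (2 * n)) - (1 + 1 / n)) := by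
        rw [hu, e2]; field_simp
      have e4 : (1 + 2 / n) * (1 - 1 / (2 * n)) - (1 + 1 / n) = (1 / n) * (1 / 2 - 1 / n) := by
        field_simp; ring
      have e5 : 0 ≤ (1 / n) * (1 / 2 - 1 / n) := by
        apply mul_nonneg (by positivity)
        rw [sub_nonneg]
        exact one_div_le_one_div_of_le (by norm_num) hn2
      have e6 : 0 ≤ u / n * (1 - 1 / (2 * n)) - (1 + 1 / n) / 144 / n := by
        rw [e3, e4]
        exact mul_nonneg (by positivity) e5
      linarith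
    have s7 : ‖(NormedSpace.exp (-((1 + (1 / 2) ^ (m + 1)) / 144 / 2 ^ (m + 1) : ℝ) •
          lap (X := Bool × Cube m) ρ)) y‖ ≤
        ‖(NormedSpace.exp (-((1 + (1 / 2) ^ (m + 1)) / 144 / 2 ^ (m + 1) : ℝ) •
          lap (X := Bool × Cube m) ρ)) v‖ := by
      set E := (NormedSpace.exp (-((1 + (1 / 2) ^ (m + 1)) / 144 / 2 ^ (m + 1) : ℝ) •
          lap (X := Bool × Cube m) ρ) : V →L[ℝ] V) with hE
      have hEa : Commute E (avg (ι := Cube m) ρ) := by
        apply commute_avg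
        intro g
        exact ((lap_commute (X := Bool × Cube m) g).smul_left _).exp_left
      have h1 : E y = avg (ι := Cube m) ρ (E v) :=
        congrArg (fun T : V →L[ℝ] V => T v) hEa.eq
      rw [h1]
      exact norm_avg_le (ι := Cube m) hρ _
    calc ‖pass (m + 1) ρ v‖ ≤ ‖Ef (pass m (ρ.comp (half true)) y)‖ := s1
      _ = ‖pass m (ρ.comp (half true)) (Ef y)‖ := by rw [s2]
      _ ≤ ‖Et (Ef y)‖ := s3
      _ = ‖(NormedSpace.exp (-(2 * u / n) • lap2 (ι := Cube m) ρ)) y‖ := by rw [s4]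
      _ ≤ _ := s5
      _ ≤ _ := s6
      _ ≤ _ := s7

end pass

end Vale.Agent.Thorp
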