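import Vale.Agent.Thorp.Reg

/-!
# P162, part D1: spectral gap of the complete graph Laplacian on vectors killed by the
symmetric subgroups of large sets
-/

open scoped InnerProductSpace
open Equiv Finset

namespace Vale.Agent.Thorp

namespace PD

variable {X : Type*} [Fintype X] [DecidableEq X]

/-- permutations supported in `A` -/
def S (A : Finset X) : Finset (Perm X) := univ.filter fun g => ∀ x, x ∉ A → g x = x

theorem mem_S {A : Finset X} {g : Perm X} : g ∈ S A ↔ ∀ x, x ∉ A → g x = x := by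
  simp [S]

theorem S_mono {A B : Finset X} (h : A ⊆ B) : S A ⊆ S B := fun g hg => by
  rw [mem_S] at hg ⊢
  exact fun x hx => hg x fun hA => hx (h hA)

theorem mul_mem_S {A : Finset X} {g h : Perm X} (hg : g ∈ S A) (hh : h ∈ S A) : g * h ∈ S A := by
  rw [mem_S] at *
  intro x hx
  rw [Perm.mul_apply, hh x hx, hg x hx]

theorem inv_mem_S {A : Finset X} {g : Perm X} (hg : g ∈ S A) : g⁻¹ ∈ S A := by
  rw [mem_S] at *
  intro x hx
  rw [Perm.inv_eq_iff_eq]
  exact (hg x hx).symm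

theorem swap_mem_S {A : Finset X} {x y : X} (hx : x ∈ A) (hy : y ∈ A) : swap x y ∈ S A := by
  rw [mem_S]
  intro z hz
  exact swap_apply_of_ne_of_ne (fun h => hz (h ▸ hx)) (fun h => hz (h ▸ hy))

theorem apply_mem {A : Finset X} {g : Perm X} (hg : g ∈ S A) {x : X} (hx : x ∈ A) : g x ∈ A := by
  by_contra hc
  have h1 := mem_S.1 hg (g x) hc
  have h2 : g x = x := g.injective h1
  rw [h2] at hc
  exact hc hx

theorem apply_mem_iff {A : Finset X} {g : Perm X} (hg : g ∈ S A) {x : X} : g x ∈ A ↔ x ∈ A := by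
  constructor
  · intro h
    by_contra hc
    rw [mem_S.1 hg x hc] at h
    exact hc h
  · exact apply_mem hg

variable {V : Type*} [NormedAddCommGroup V] [InnerProductSpace ℝ V]
  (ρ : Perm X →* (V →L[ℝ] V))

/-- sum of the operators of the symmetric subgroup of `A` -/
noncomputable def M (A : Finset X) : V →L[ℝ] V := ∑ g ∈ S A, ρ g

/-- Laplacian of the complete graph on `B` -/
noncomputable def lapOn (B : Finset X) : V →L[ℝ] V :=
  (1 / 2 : ℝ) • ∑ x ∈ B, ∑ y ∈ B, (1 - ρ (swap x y))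

theorem lapOn_univ : lapOn ρ univ = lap ρ := rfl

theorem M_apply (A : Finset X) (v : V) : M ρ A v = ∑ g ∈ S A, ρ g v := by
  unfold M
  rw [_root_.sum_apply]

theorem mul_M {A : Finset X} {g : Perm X} (hg : g ∈ S A) : ρ g * M ρ A = M ρ A := by
  unfold M
  rw [Finset.mul_sum]
  refine Finset.sum_bij' (fun h _ => g * h) (fun h _ => g⁻¹ * h) ?_ ?_ ?_ ?_ ?_
  · intro h hh; exact mul_mem_S hg hh
  · intro h hh; exact mul_mem_S (inv_mem_S hg) hh
  · intro h _; simp
  · intro h _; simp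
  · intro h _; rw [map_mul]

theorem rho_M {A : Finset X} {g : Perm X} (hg : g ∈ S A) (v : V) : ρ g (M ρ A v) = M ρ A v := by
  have := congrArg (fun T : V →L[ℝ] V => T v) (mul_M ρ hg)
  exact this

theorem S_empty : S (∅ : Finset X) = {1} := by
  ext g
  rw [mem_S, Finset.mem_singleton]
  constructor
  · intro h; ext x; rw [h x (Finset.notMem_empty x), Perm.one_apply]
  · rintro rfl x _; rfl

theorem S_singleton (a : X) : S ({a} : Finset X) = {1} := by
  ext g
  rw [mem_S, Finset.mem_singleton]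
  constructor
  · intro h
    have h1 : ∀ x, x ≠ a → g x = x := fun x hx => h x (by simpa using hx)
    ext x
    rw [Perm.one_apply]
    by_cases hx : x = a
    · subst hx
      by_contra hc
      have := h1 (g x) hc
      exact hc (g.injective this)
    · exact h1 x hx
  · rintro rfl x _; rfl

theorem M_singleton (a : X) : M ρ {a} = 1 := by
  unfold M
  rw [S_singleton, Finset.sum_singleton, map_one]

theorem M_insert {A : Finset X} {i : X} (hi : i ∉ A) :
    M ρ (insert i A) = (∑ j ∈ insert i A, ρ (swap i j)) * M ρ A := by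
  unfold M
  rw [Finset.sum_mul_sum, ← Finset.sum_product']
  symm
  refine Finset.sum_bij' (fun (q : X × Perm X) _ => swap i q.1 * q.2)
    (fun g _ => (g i, swap i (g i) * g)) ?_ ?_ ?_ ?_ ?_
  · intro q hq
    rw [Finset.mem_product] at hq
    exact mul_mem_S (swap_mem_S (Finset.mem_insert_self i A) hq.1)
      (S_mono (Finset.subset_insert i A) hq.2)
  · intro g hg
    have hgi : g i ∈ insert i A := apply_mem hg (Finset.mem_insert_self i A)
    rw [Finset.mem_product]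
    refine ⟨hgi, mem_S.2 fun x hx => ?_⟩
    rw [Perm.mul_apply]
    by_cases hxi : x = i
    · rw [hxi, swap_apply_right]
    · have hx2 : x ∉ insert i A := by
        rw [Finset.mem_insert]; rintro (h | h)
        · exact hxi h
        · exact hx h
      rw [mem_S.1 hg x hx2]
      exact swap_apply_of_ne_of_ne hxi (fun h => hx2 (h ▸ hgi))
  · intro q hq
    rw [Finset.mem_product] at hq
    have h1 : q.2 i = i := mem_S.1 hq.2 i hi
    have h2 : (swap i q.1 * q.2) i = q.1 := by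
      rw [Perm.mul_apply, h1, swap_apply_left]
    refine Prod.ext h2 ?_
    show swap i ((swap i q.1 * q.2) i) * (swap i q.1 * q.2) = q.2
    rw [h2, ← mul_assoc, swap_mul_self, one_mul]
  · intro g _
    show swap i (g i) * (swap i (g i) * g) = g
    rw [← mul_assoc, swap_mul_self, one_mul]
  · intro q _
    rw [map_mul]

theorem M_zero_of_subset {A A' : Finset X} (h : A ⊆ A') {v : V} (hv : M ρ A v = 0) :
    M ρ A' v = 0 := by
  have key : ∀ C : Finset X, M ρ (A ∪ C) v = 0 := by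
    intro C
    induction C using Finset.induction_on with
    | empty => simpa using hv
    | insert i C _ ih =>
      by_cases hiA : i ∈ A ∪ C
      · have : A ∪ insert i C = A ∪ C := by
          rw [Finset.union_insert, Finset.insert_eq_of_mem hiA]
        rw [this]; exact ih
      · rw [Finset.union_insert, M_insert ρ hiA]
        show (∑ j ∈ insert i (A ∪ C), ρ (swap i j)) (M ρ (A ∪ C) v) = 0
        rw [ih, map_zero]
  have := key A'
  rwa [Finset.union_eq_right.2 h] at this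

/-- `lapOn B` commutes with the permutations of `B` -/
theorem rho_lapOn {B : Finset X} {g : Perm X} (hg : g ∈ S B) :
    ρ g * lapOn ρ B = lapOn ρ B * ρ g := by
  unfold lapOn
  rw [mul_smul_comm, smul_mul_assoc]
  congr 1
  rw [Finset.mul_sum, Finset.sum_mul]
  refine Finset.sum_bij' (fun x _ => g x) (fun x _ => g⁻¹ x) ?_ ?_ ?_ ?_ ?_
  · intro x hx; exact apply_mem hg hx
  · intro x hx; exact apply_mem (inv_mem_S hg) hx
  · intro x _; simp
  · intro x _; simp
  · intro x _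
    rw [Finset.mul_sum, Finset.sum_mul]
    refine Finset.sum_bij' (fun x _ => g x) (fun x _ => g⁻¹ x) ?_ ?_ ?_ ?_ ?_
    · intro x hx; exact apply_mem hg hx
    · intro x hx; exact apply_mem (inv_mem_S hg) hx
    · intro x _; simp
    · intro x _; simp
    · intro y _
      rw [mul_sub, sub_mul, mul_one, one_mul, ← map_mul, ← map_mul, mul_swap_eq_swap_mul]

theorem M_lapOn {A B : Finset X} (h : A ⊆ B) : M ρ A * lapOn ρ B = lapOn ρ B * M ρ A := by
  unfold M
  rw [Finset.sum_mul, Finset.mul_sum]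
  exact Finset.sum_congr rfl fun g hg => rho_lapOn ρ (S_mono h hg)

theorem M_comm {A A' : Finset X} (h : Disjoint A A') : M ρ A * M ρ A' = M ρ A' * M ρ A := by
  unfold M
  rw [Finset.sum_mul_sum, Finset.sum_mul_sum, Finset.sum_comm]
  refine Finset.sum_congr rfl fun g hg => Finset.sum_congr rfl fun g' hg' => ?_
  rw [← map_mul, ← map_mul]
  congr 1
  have hd : Perm.Disjoint g' g := by
    intro x
    by_cases hx : x ∈ A
    · right; exact mem_S.1 hg x (Finset.disjoint_left.1 h hx)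
    · left; exact mem_S.1 hg' x hx
  exact hd.commute

variable {ρ} (hρ : IsOrth ρ)
include hρ

theorem inner_rho (g : Perm X) (v w : V) : ⟪ρ g v, ρ g w⟫_ℝ = ⟪v, w⟫_ℝ := by
  have h1 := hρ g (v + w)
  have h2 := hρ g v
  have h3 := hρ g w
  rw [map_add] at h1
  have e1 := norm_add_sq_real (ρ g v) (ρ g w)
  have e2 := norm_add_sq_real v w
  rw [h1, h2, h3] at e1
  linarith

theorem inner_swap (x y : X) (v w : V) : ⟪ρ (swap x y) v, w⟫_ℝ = ⟪v, ρ (swap x y) w⟫_ℝ := by
  rw [← inner_rho hρ (swap x y) v (ρ (swap x y) w)]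
  congr 1
  have : (ρ (swap x y) * ρ (swap x y)) w = w := by
    rw [← map_mul, swap_mul_self, map_one]; rfl
  exact this.symm

theorem inner_one_sub (x y : X) (v : V) :
    ⟪v, v - ρ (swap x y) v⟫_ℝ = (1 / 2) * ‖v - ρ (swap x y) v‖ ^ 2 := by
  have e := norm_sub_sq_real v (ρ (swap x y) v)
  rw [hρ] at e
  rw [inner_sub_right, real_inner_self_eq_norm_sq]
  linarith

theorem lapOn_apply (B : Finset X) (v : V) :
    lapOn ρ B v = (1 / 2 : ℝ) • ∑ x ∈ B, ∑ y ∈ B, (v - ρ (swap x y) v) := by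
  unfold lapOn
  simp

theorem inner_lapOn (B : Finset X) (v w : V) :
    ⟪v, lapOn ρ B w⟫_ℝ = (1 / 2) * ∑ x ∈ B, ∑ y ∈ B, ⟪v, w - ρ (swap x y) w⟫_ℝ := by
  rw [lapOn_apply hρ, real_inner_smul_right, inner_sum]
  congr 1
  exact Finset.sum_congr rfl fun x _ => inner_sum _ _ _

theorem lapOn_symm (B : Finset X) (v w : V) : ⟪lapOn ρ B v, w⟫_ℝ = ⟪v, lapOn ρ B w⟫_ℝ := by
  rw [real_inner_comm, inner_lapOn hρ, inner_lapOn hρ]
  congr 1
  refine Finset.sum_congr rfl fun x _ => Finset.sum_congr rfl fun y _ => ?_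
  rw [inner_sub_right, inner_sub_right, real_inner_comm w v, ← inner_swap hρ,
    real_inner_comm v (ρ (swap x y) w)]

theorem lapOn_nonneg (B : Finset X) (v : V) : 0 ≤ ⟪v, lapOn ρ B v⟫_ℝ := by
  rw [inner_lapOn hρ]
  refine mul_nonneg (by norm_num) (Finset.sum_nonneg fun x _ => Finset.sum_nonneg fun y _ => ?_)
  rw [inner_one_sub hρ]
  positivity

/-- the energy of `z = M A v` -/
theorem energy_M {A B : Finset X} (hAB : A ⊆ B) {v : V}
    (hv : ∀ i ∈ B, i ∉ A → M ρ (insert i A) v = 0) :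
    ⟪M ρ A v, lapOn ρ B (M ρ A v)⟫_ℝ
      = ((B \ A).card : ℝ) * (A.card + 1) * ‖M ρ A v‖ ^ 2
        + ⟪M ρ A v, lapOn ρ (B \ A) (M ρ A v)⟫_ℝ := by
  set z := M ρ A v with hz
  -- sum over the swaps with `i`
  have h1 : ∀ i ∈ B \ A, ∑ j ∈ A, ρ (swap i j) z = -z := by
    intro i hi
    rw [Finset.mem_sdiff] at hi
    have h2 := hv i hi.1 hi.2
    rw [M_insert ρ hi.2] at h2
    have h3 : (∑ j ∈ insert i A, ρ (swap i j)) z = 0 := h2
    rw [_root_.sum_apply, Finset.sum_insert hi.2, swap_self] at h3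
    have h4 : ρ (Equiv.refl X) z = z := by
      have : ρ (Equiv.refl X) = 1 := map_one ρ
      rw [this]; rfl
    rw [h4] at h3
    exact eq_neg_of_add_eq_zero_right h3
  have hin : ∀ i ∈ B \ A, ∑ j ∈ A, ⟪z, z - ρ (swap i j) z⟫_ℝ = (A.card + 1) * ‖z‖ ^ 2 := by
    intro i hi
    have : ∑ j ∈ A, ⟪z, z - ρ (swap i j) z⟫_ℝ = ∑ j ∈ A, ⟪z, z⟫_ℝ - ⟪z, ∑ j ∈ A, ρ (swap i j) z⟫_ℝ := by
      rw [inner_sum, ← Finset.sum_sub_distrib]
      exact Finset.sum_congr rfl fun j _ => inner_sub_right _ _ _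
    rw [this, h1 i hi, inner_neg_right, real_inner_self_eq_norm_sq, Finset.sum_const,
      nsmul_eq_mul]
    ring
  have hAA : ∀ x ∈ A, ∀ y ∈ A, ⟪z, z - ρ (swap x y) z⟫_ℝ = 0 := by
    intro x hx y hy
    rw [hz, rho_M ρ (swap_mem_S hx hy), sub_self, inner_zero_right]
  rw [inner_lapOn hρ, inner_lapOn hρ]
  have hsplit : ∀ f : X → ℝ, ∑ x ∈ B, f x = ∑ x ∈ A, f x + ∑ x ∈ B \ A, f x := by
    intro f
    rw [add_comm, Finset.sum_sdiff hAB]
  rw [hsplit]
  have e1 : ∑ x ∈ A, ∑ y ∈ B, ⟪z, z - ρ (swap x y) z⟫_ℝ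
      = ((B \ A).card : ℝ) * ((A.card + 1) * ‖z‖ ^ 2) := by
    have : ∀ x ∈ A, ∑ y ∈ B, ⟪z, z - ρ (swap x y) z⟫_ℝ
        = ∑ y ∈ B \ A, ⟪z, z - ρ (swap y x) z⟫_ℝ := by
      intro x hx
      rw [hsplit, Finset.sum_eq_zero fun y hy => hAA x hx y hy, zero_add]
      exact Finset.sum_congr rfl fun y _ => by rw [swap_comm]
    rw [Finset.sum_congr rfl this, Finset.sum_comm, Finset.sum_congr rfl hin, Finset.sum_const,
      nsmul_eq_mul]
  have e2 : ∑ x ∈ B \ A, ∑ y ∈ B, ⟪z, z - ρ (swap x y) z⟫_ℝ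
      = ((B \ A).card : ℝ) * ((A.card + 1) * ‖z‖ ^ 2)
        + ∑ x ∈ B \ A, ∑ y ∈ B \ A, ⟪z, z - ρ (swap x y) z⟫_ℝ := by
    have : ∀ x ∈ B \ A, ∑ y ∈ B, ⟪z, z - ρ (swap x y) z⟫_ℝ
        = (A.card + 1) * ‖z‖ ^ 2 + ∑ y ∈ B \ A, ⟪z, z - ρ (swap x y) z⟫_ℝ := by
      intro x hx
      rw [hsplit, hin x hx]
    rw [Finset.sum_congr rfl this, Finset.sum_add_distrib, Finset.sum_const, nsmul_eq_mul]
  rw [e1, e2]
  ring

/-- spectral gap on the vectors killed by the symmetric groups of the sets of size `s` -/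
theorem gap [FiniteDimensional ℝ V] : ∀ (k : ℕ) (B : Finset X), B.card = k → ∀ s : ℕ, 1 ≤ s →
    s ≤ B.card → ∀ v : V, (∀ A ⊆ B, A.card = s → M ρ A v = 0) →
    (B.card : ℝ) * (B.card + 1 - s) / 2 * ‖v‖ ^ 2 ≤ ⟪v, lapOn ρ B v⟫_ℝ := by
  intro k
  induction k using Nat.strong_induction_on with
  | _ k IH =>
  intro B hB s hs1 hsB v hv
  -- the invariant subspace
  let N : Submodule ℝ V :=
    { carrier := {v | ∀ A ⊆ B, A.card = s → M ρ A v = 0}
      add_mem' := fun {a b} ha hb A hA hs => by rw [map_add, ha A hA hs, hb A hA hs, add_zero]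
      zero_mem' := fun A _ _ => map_zero _
      smul_mem' := fun c x hx A hA hs => by rw [map_smul, hx A hA hs, smul_zero] }
  have hNmem : ∀ w : V, w ∈ N ↔ ∀ A ⊆ B, A.card = s → M ρ A w = 0 := fun w => Iff.rfl
  have hinv : ∀ w ∈ N, (lapOn ρ B).toLinearMap w ∈ N := by
    intro w hw A hA hs
    have h1 : (M ρ A * lapOn ρ B) w = (lapOn ρ B * M ρ A) w := by rw [M_lapOn ρ hA]
    show M ρ A (lapOn ρ B w) = 0
    have h2 : M ρ A (lapOn ρ B w) = lapOn ρ B (M ρ A w) := h1
    rw [h2, (hNmem w).1 hw A hA hs, map_zero]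
  have hvN : v ∈ N := hv
  by_cases hv0 : v = 0
  · rw [hv0, norm_zero, inner_zero_left]; simp
  have hnt : Nontrivial N := ⟨⟨⟨v, hvN⟩, 0, fun h => hv0 (congrArg Subtype.val h)⟩⟩
  set T : N →ₗ[ℝ] N := (lapOn ρ B).toLinearMap.restrict hinv with hT
  have hTapp : ∀ w : N, ((T w : N) : V) = lapOn ρ B (w : V) := fun w => rfl
  have hsym0 : (lapOn ρ B).toLinearMap.IsSymmetric := fun x y => lapOn_symm hρ B x y
  have hsym : T.IsSymmetric := hsym0.restrict_invariant hinv
  have hK := hsym.hasEigenvalue_iInf_of_finiteDimensional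
  set K : ℝ := ⨅ x : {x : N // x ≠ 0}, RCLike.re ⟪T x, (x : N)⟫_ℝ / ‖(x : N)‖ ^ 2 with hKdef
  have hKle : K * ‖v‖ ^ 2 ≤ ⟪v, lapOn ρ B v⟫_ℝ := by
    have hbdd : BddBelow (Set.range fun x : {x : N // x ≠ 0} =>
        RCLike.re ⟪T x, (x : N)⟫_ℝ / ‖(x : N)‖ ^ 2) := by
      refine ⟨0, ?_⟩
      rintro _ ⟨x, rfl⟩
      refine div_nonneg ?_ (sq_nonneg _)
      show 0 ≤ ⟪lapOn ρ B ((x : N) : V), ((x : N) : V)⟫_ℝ
      rw [lapOn_symm hρ]
      exact lapOn_nonneg hρ B _
    have hvn : (⟨v, hvN⟩ : N) ≠ 0 := fun h => hv0 (congrArg Subtype.val h)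
    have h1 : K ≤ RCLike.re ⟪T ⟨v, hvN⟩, (⟨v, hvN⟩ : N)⟫_ℝ / ‖(⟨v, hvN⟩ : N)‖ ^ 2 :=
      ciInf_le hbdd ⟨⟨v, hvN⟩, hvn⟩
    have h2 : RCLike.re ⟪T ⟨v, hvN⟩, (⟨v, hvN⟩ : N)⟫_ℝ = ⟪v, lapOn ρ B v⟫_ℝ := lapOn_symm hρ B v v
    have h3 : ‖(⟨v, hvN⟩ : N)‖ = ‖v‖ := rfl
    rw [h2, h3, le_div_iff₀ (by positivity)] at h1
    exact h1
  refine le_trans (mul_le_mul_of_nonneg_right ?_ (sq_nonneg _)) hKle
  obtain ⟨v0, hv0e⟩ := hK.exists_hasEigenvector
  have hv0ne : (v0 : V) ≠ 0 := fun h => hv0e.2 (Subtype.ext h)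
  have hv0K : lapOn ρ B (v0 : V) = K • (v0 : V) := by
    have h1 := hv0e.apply_eq_smul
    have h2 := congrArg (Subtype.val : N → V) h1
    exact h2
  have hv0N : ∀ A ⊆ B, A.card = s → M ρ A (v0 : V) = 0 := v0.2
  clear_value K T
  generalize (v0 : V) = w at hv0ne hv0K hv0N
  clear hK hv0e v0 hKle
  classical
  -- a set `A` of maximal size with `M A w ≠ 0`
  have hBne : B.Nonempty := Finset.card_pos.1 (by omega)
  obtain ⟨x0, hx0⟩ := hBne
  have hx0s : ({x0} : Finset X) ∈ B.powerset.filter (fun A => M ρ A w ≠ 0) := by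
    rw [Finset.mem_filter, Finset.mem_powerset, Finset.singleton_subset_iff]
    refine ⟨hx0, ?_⟩
    rw [M_singleton]
    exact hv0ne
  obtain ⟨A, hA, hmax⟩ := Finset.exists_max_image _ Finset.card ⟨_, hx0s⟩
  rw [Finset.mem_filter, Finset.mem_powerset] at hA
  obtain ⟨hAB, hAw⟩ := hA
  have hkill : ∀ A' ⊆ B, A.card < A'.card → M ρ A' w = 0 := by
    intro A' hA' hc
    by_contra hne
    have := hmax A' (by rw [Finset.mem_filter, Finset.mem_powerset]; exact ⟨hA', hne⟩)
    omega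
  have hA1 : 1 ≤ A.card := by
    have := hmax _ hx0s
    rwa [Finset.card_singleton] at this
  have hAs : A.card < s := by
    by_contra hc
    push Not at hc
    obtain ⟨A'', hA'', hc''⟩ := Finset.exists_subset_card_eq hc
    exact hAw (M_zero_of_subset ρ hA'' (hv0N A'' (hA''.trans hAB) hc''))
  set z := M ρ A w with hz
  have hzK : lapOn ρ B z = K • z := by
    have h1 : (M ρ A * lapOn ρ B) w = (lapOn ρ B * M ρ A) w := by rw [M_lapOn ρ hAB]
    have h2 : M ρ A (lapOn ρ B w) = lapOn ρ B (M ρ A w) := h1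
    rw [hv0K, map_smul] at h2
    exact h2.symm
  have hen := energy_M hρ hAB (v := w) fun i hi hiA => hkill (insert i A)
    (Finset.insert_subset hi hAB) (by rw [Finset.card_insert_of_notMem hiA]; omega)
  rw [← hz, hzK, real_inner_smul_right, real_inner_self_eq_norm_sq] at hen
  have hzpos : 0 < ‖z‖ ^ 2 := by
    have : 0 < ‖z‖ := norm_pos_iff.2 hAw
    positivity
  have hcard : (B \ A).card = B.card - A.card := Finset.card_sdiff_of_subset hAB
  have hcardle : A.card ≤ B.card := Finset.card_le_card hAB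
  have hcR : ((B \ A).card : ℝ) = B.card - A.card := by
    rw [hcard, Nat.cast_sub hcardle]
  have hsR : (A.card : ℝ) + 1 ≤ s := by exact_mod_cast hAs
  have hAR : (1 : ℝ) ≤ A.card := by exact_mod_cast hA1
  have hsBR : (s : ℝ) ≤ B.card := by exact_mod_cast hsB
  -- the bound `K ≥ b' (n + 2) / 2`
  have hmain : ((B \ A).card : ℝ) * (B.card + 2) / 2 * ‖z‖ ^ 2 ≤ K * ‖z‖ ^ 2 := by
    by_cases hc : A.card + 1 ≤ (B \ A).card
    · have hIH := IH (B \ A).card (by omega) (B \ A) rfl (A.card + 1) (by omega) hc z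
        fun A' hA' hA'c => by
          have hd : Disjoint A' A :=
            Finset.disjoint_of_subset_left hA' Finset.sdiff_disjoint
          have h1 : (M ρ A' * M ρ A) w = (M ρ A * M ρ A') w := by rw [M_comm ρ hd]
          have h2 : M ρ A' (M ρ A w) = M ρ A (M ρ A' w) := h1
          rw [hz, h2, hkill A' (hA'.trans Finset.sdiff_subset) (by omega), map_zero]
      rw [hen]
      refine le_trans (le_of_eq ?_) (add_le_add_right hIH _)
      push_cast
      rw [hcR]
      ring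
    · push Not at hc
      have h1 := lapOn_nonneg hρ (B \ A) z
      rw [hen]
      have h2 : ((B \ A).card : ℝ) ≤ A.card := by exact_mod_cast (by omega : (B \ A).card ≤ A.card)
      have h3 : ((B \ A).card : ℝ) * (B.card + 2) / 2 ≤ ((B \ A).card : ℝ) * (A.card + 1) := by
        have h4 : (0 : ℝ) ≤ (B \ A).card := Nat.cast_nonneg _
        rw [hcR] at h2
        nlinarith
      have h5 := mul_le_mul_of_nonneg_right h3 hzpos.le
      linarith
  have hK2 : ((B \ A).card : ℝ) * (B.card + 2) / 2 ≤ K := le_of_mul_le_mul_right hmain hzpos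
  refine le_trans ?_ hK2
  rw [hcR]
  nlinarith

end PD

end Vale.Agent.Thorp
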