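import Vale.Agent.Thorp.Defs

/-!
# P162, basic facts on orthogonal representations of symmetric groups
-/

open scoped InnerProductSpace
open Equiv

namespace Vale.Agent.Thorp

variable {V : Type*} [NormedAddCommGroup V] [InnerProductSpace ℝ V]

section basics

variable {X : Type*} {ρ : Perm X →* (V →L[ℝ] V)}

theorem IsOrth.inner (hρ : IsOrth ρ) (g : Perm X) (u v : V) : ⟪ρ g u, ρ g v⟫_ℝ = ⟪u, v⟫_ℝ := by
  rw [real_inner_eq_norm_add_mul_self_sub_norm_mul_self_sub_norm_mul_self_div_two,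
    real_inner_eq_norm_add_mul_self_sub_norm_mul_self_sub_norm_mul_self_div_two, ← map_add,
    hρ, hρ, hρ]

theorem rep_mul_apply (g h : Perm X) (v : V) : ρ (g * h) v = ρ g (ρ h v) := by
  rw [map_mul]; rfl

theorem rep_one_apply (v : V) : ρ 1 v = v := by
  rw [map_one]; rfl

theorem IsOrth.adj (hρ : IsOrth ρ) (g : Perm X) (u v : V) : ⟪ρ g u, v⟫_ℝ = ⟪u, ρ g⁻¹ v⟫_ℝ := by
  rw [← hρ.inner g u (ρ g⁻¹ v), ← rep_mul_apply, mul_inv_cancel, rep_one_apply]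

theorem IsOrth.adj_invol (hρ : IsOrth ρ) {g : Perm X} (hg : g * g = 1) (u v : V) :
    ⟪ρ g u, v⟫_ℝ = ⟪u, ρ g v⟫_ℝ := by
  rw [hρ.adj, inv_eq_of_mul_eq_one_left hg]

theorem IsOrth.comp (hρ : IsOrth ρ) {Y : Type*} (f : Perm Y →* Perm X) :
    IsOrth (ρ.comp f) := fun g v => hρ (f g) v

theorem IsOrth.norm_sub_sq (hρ : IsOrth ρ) (g : Perm X) (v : V) :
    ‖v - ρ g v‖ ^ 2 = 2 * ⟪v, v - ρ g v⟫_ℝ := by
  rw [@norm_sub_sq_real, hρ, inner_sub_right, real_inner_self_eq_norm_sq]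
  ring

theorem IsOrth.inner_sub_nonneg (hρ : IsOrth ρ) (g : Perm X) (v : V) :
    0 ≤ ⟪v, v - ρ g v⟫_ℝ := by
  have := hρ.norm_sub_sq g v
  have h2 : 0 ≤ ‖v - ρ g v‖ ^ 2 := by positivity
  linarith

theorem IsOrth.inner_sub_le (hρ : IsOrth ρ) (g : Perm X) (v : V) :
    ⟪v, v - ρ g v⟫_ℝ ≤ 2 * ‖v‖ ^ 2 := by
  have h1 := hρ.norm_sub_sq g v
  have h2 : ‖v - ρ g v‖ ≤ 2 * ‖v‖ := by
    calc ‖v - ρ g v‖ ≤ ‖v‖ + ‖ρ g v‖ := norm_sub_le _ _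
      _ = 2 * ‖v‖ := by rw [hρ]; ring
  have h3 : ‖v - ρ g v‖ ^ 2 ≤ (2 * ‖v‖) ^ 2 := pow_le_pow_left₀ (norm_nonneg _) h2 2
  nlinarith

end basics

section laplacian

variable {X : Type*} [Fintype X] [DecidableEq X] {ρ : Perm X →* (V →L[ℝ] V)}

theorem lap_apply (v : V) :
    lap ρ v = (1 / 2 : ℝ) • ∑ x, ∑ y, (v - ρ (swap x y) v) := by
  simp [lap]

theorem inner_lap (u v : V) :
    ⟪u, lap ρ v⟫_ℝ = (1 / 2) * ∑ x, ∑ y, ⟪u, v - ρ (swap x y) v⟫_ℝ := by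
  rw [lap_apply, inner_smul_right, inner_sum]
  simp_rw [inner_sum]

theorem lap_nonneg (hρ : IsOrth ρ) (v : V) : 0 ≤ ⟪v, lap ρ v⟫_ℝ := by
  rw [inner_lap]
  have : 0 ≤ ∑ x, ∑ y, ⟪v, v - ρ (swap x y) v⟫_ℝ :=
    Finset.sum_nonneg fun x _ => Finset.sum_nonneg fun y _ => hρ.inner_sub_nonneg _ _
  linarith

theorem lap_le (hρ : IsOrth ρ) (v : V) :
    ⟪v, lap ρ v⟫_ℝ ≤ (Fintype.card X : ℝ) ^ 2 * ‖v‖ ^ 2 := by
  rw [inner_lap]
  have : ∑ x : X, ∑ y : X, ⟪v, v - ρ (swap x y) v⟫_ℝ ≤ ∑ x : X, ∑ y : X, 2 * ‖v‖ ^ 2 :=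
    Finset.sum_le_sum fun x _ => Finset.sum_le_sum fun y _ => hρ.inner_sub_le _ _
  simp only [Finset.sum_const, Finset.card_univ, nsmul_eq_mul] at this
  nlinarith

theorem lap_symm (hρ : IsOrth ρ) (u v : V) : ⟪lap ρ u, v⟫_ℝ = ⟪u, lap ρ v⟫_ℝ := by
  rw [inner_lap, lap_apply, inner_smul_left, sum_inner]
  simp_rw [sum_inner, inner_sub_left, inner_sub_right, hρ.adj_invol (swap_mul_self _ _)]
  simp

theorem rep_lap (g : Perm X) : ρ g * lap ρ = lap ρ * ρ g := by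
  ext v
  change ρ g (lap ρ v) = lap ρ (ρ g v)
  simp only [lap_apply, map_smul, map_sum, map_sub]
  congr 1
  rw [← Equiv.sum_comp g (fun x => ∑ y, (ρ g v - ρ (swap x y) (ρ g v)))]
  apply Finset.sum_congr rfl
  intro x _
  rw [← Equiv.sum_comp g (fun y => (ρ g v - ρ (swap (g x) y) (ρ g v)))]
  apply Finset.sum_congr rfl
  intro y _
  rw [← rep_mul_apply, ← rep_mul_apply, Equiv.swap_apply_apply]
  simp [mul_assoc]

theorem rep_lap_apply (g : Perm X) (v : V) : ρ g (lap ρ v) = lap ρ (ρ g v) := by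
  have := congrArg (fun T : V →L[ℝ] V => T v) (rep_lap (ρ := ρ) g)
  exact this

end laplacian

end Vale.Agent.Thorp
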