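import Vale.Agent.Thorp.RepBasic

/-!
# P162, decomposition of a representation under the flips
-/

open scoped InnerProductSpace
open Equiv

namespace Vale.Agent.Thorp

variable {V : Type*} [NormedAddCommGroup V] [InnerProductSpace ℝ V]
variable {ι : Type*} [Fintype ι] [DecidableEq ι]

/-- Character of the group of coins. -/
def chi (S : Finset ι) (c : ι → Bool) : ℝ := ∏ p ∈ S, (if c p then -1 else 1)

omit [Fintype ι] [DecidableEq ι] in
theorem chi_sq (S : Finset ι) (c : ι → Bool) : chi S c * chi S c = 1 := by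
  unfold chi
  rw [← Finset.prod_mul_distrib]
  apply Finset.prod_eq_one
  intro p _
  split_ifs <;> norm_num

/-- Sum of coins. -/
def xorC (c c' : ι → Bool) : ι → Bool := fun i => xor (c i) (c' i)

omit [Fintype ι] [DecidableEq ι] in
theorem chi_xor (S : Finset ι) (c c' : ι → Bool) : chi S (xorC c c') = chi S c * chi S c' := by
  unfold chi xorC
  rw [← Finset.prod_mul_distrib]
  apply Finset.prod_congr rfl
  intro p _
  cases c p <;> cases c' p <;> norm_num

theorem chi_symmDiff (S T : Finset ι) (c : ι → Bool) :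
    chi (symmDiff S T) c = chi S c * chi T c := by
  have h1 : chi S c = chi (S \ T) c * chi (S ∩ T) c := by
    unfold chi
    rw [← Finset.prod_union (Finset.disjoint_sdiff_inter S T), Finset.sdiff_union_inter]
  have h2 : chi T c = chi (T \ S) c * chi (S ∩ T) c := by
    unfold chi
    rw [Finset.inter_comm S T, ← Finset.prod_union (Finset.disjoint_sdiff_inter T S),
      Finset.sdiff_union_inter]
  have h3 : chi (symmDiff S T) c = chi (S \ T) c * chi (T \ S) c := by
    unfold chi
    rw [← Finset.prod_union disjoint_sdiff_sdiff]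
    rfl
  rw [h1, h2, h3]
  have := chi_sq (S ∩ T) c
  linear_combination (-(chi (S \ T) c) * chi (T \ S) c) * this

omit [Fintype ι] [DecidableEq ι] in
theorem flip_mul (c c' : ι → Bool) : flipPerm c * flipPerm c' = flipPerm (xorC c c') := by
  ext p
  · simp only [Perm.mul_apply, flipPerm, Equiv.coe_fn_mk, xorC]
    cases p.1 <;> cases c p.2 <;> cases c' p.2 <;> rfl
  · simp [flipPerm]

omit [Fintype ι] [DecidableEq ι] in
theorem flip_mul_self (c : ι → Bool) : flipPerm c * flipPerm c = 1 := by
  ext p
  · simp [flipPerm]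
  · simp [flipPerm]

omit [Fintype ι] [DecidableEq ι] in
theorem xorC_xorC (c c' : ι → Bool) : xorC c (xorC c c') = c' := by
  funext i; simp [xorC]

/-- Adding fixed coins is a bijection. -/
def xorEquiv (c : ι → Bool) : (ι → Bool) ≃ (ι → Bool) where
  toFun := xorC c
  invFun := xorC c
  left_inv := xorC_xorC c
  right_inv := xorC_xorC c

/-- Projection on the sector `S`. -/
noncomputable def sec (ρ : Perm (Bool × ι) →* (V →L[ℝ] V)) (S : Finset ι) : V →L[ℝ] V :=
  ((2 : ℝ) ^ Fintype.card ι)⁻¹ • ∑ c : ι → Bool, chi S c • ρ (flipPerm c)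

variable {ρ : Perm (Bool × ι) →* (V →L[ℝ] V)}

theorem sec_apply (S : Finset ι) (v : V) :
    sec ρ S v = ((2 : ℝ) ^ Fintype.card ι)⁻¹ • ∑ c : ι → Bool, chi S c • ρ (flipPerm c) v := by
  simp [sec]

theorem sec_empty : sec ρ ∅ = avg ρ := by
  simp [sec, avg, chi]

theorem flip_sec (c : ι → Bool) (S : Finset ι) (v : V) :
    ρ (flipPerm c) (sec ρ S v) = chi S c • sec ρ S v := by
  rw [sec_apply, map_smul, map_sum, smul_comm]
  congr 1
  rw [Finset.smul_sum, ← Equiv.sum_comp (xorEquiv c)]
  apply Finset.sum_congr rfl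
  intro c' _
  rw [map_smul, ← rep_mul_apply, flip_mul]
  change chi S (xorC c c') • ρ (flipPerm (xorC c (xorC c c'))) v = _
  rw [xorC_xorC, chi_xor, mul_smul]

omit [DecidableEq ι] in
theorem sum_chi (c : ι → Bool) :
    ∑ S : Finset ι, chi S c = if c = fun _ => false then (2 : ℝ) ^ Fintype.card ι else 0 := by
  have h : ∑ S : Finset ι, chi S c = ∏ p : ι, (1 + (if c p then (-1 : ℝ) else 1)) := by
    rw [Finset.prod_one_add, Finset.powerset_univ]
    rfl
  rw [h]
  split_ifs with hc
  · subst hc
    simp only [Bool.false_eq_true, if_false, Finset.prod_const, Finset.card_univ]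
    norm_num
  · have : ∃ p, c p = true := by
      by_contra hcon
      push Not at hcon
      apply hc
      funext p
      simpa using hcon p
    obtain ⟨p, hp⟩ := this
    apply Finset.prod_eq_zero (Finset.mem_univ p)
    simp [hp]

theorem sum_sec (v : V) : ∑ S : Finset ι, sec ρ S v = v := by
  simp_rw [sec_apply]
  rw [← Finset.smul_sum, Finset.sum_comm]
  simp_rw [← Finset.sum_smul, sum_chi]
  rw [Finset.sum_eq_single (fun _ => false)]
  · have h1 : flipPerm (fun _ : ι => false) = 1 := by
      ext p <;> simp [flipPerm]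
    rw [if_pos rfl, smul_smul, inv_mul_cancel₀ (by positivity), one_smul, h1, rep_one_apply]
  · intro c _ hc
    rw [if_neg hc, zero_smul]
  · intro h
    exact absurd (Finset.mem_univ _) h

theorem sec_inner_of_ne (hρ : IsOrth ρ) {S T : Finset ι} (h : S ≠ T) (u v : V) :
    ⟪sec ρ S u, sec ρ T v⟫_ℝ = 0 := by
  have hne : (symmDiff S T).Nonempty := by
    rw [Finset.nonempty_iff_ne_empty]
    intro h0
    exact h (symmDiff_eq_bot.1 h0)
  obtain ⟨p, hp⟩ := hne
  have e := hρ.inner (flipPerm (fun i => decide (i = p))) (sec ρ S u) (sec ρ T v)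
  rw [flip_sec, flip_sec, inner_smul_left, inner_smul_right, ← mul_assoc] at e
  have h2 : chi S (fun i => decide (i = p)) * chi T (fun i => decide (i = p)) = -1 := by
    rw [← chi_symmDiff]
    unfold chi
    rw [Finset.prod_eq_single p]
    · simp
    · intro q _ hq
      simp [hq]
    · intro h'
      exact absurd hp h'
  simp only [RCLike.conj_to_real] at e
  rw [h2] at e
  linarith

theorem norm_sq_eq_sum_sec (hρ : IsOrth ρ) (v : V) :
    ‖v‖ ^ 2 = ∑ S : Finset ι, ‖sec ρ S v‖ ^ 2 := by
  conv_lhs => rw [← sum_sec (ρ := ρ) v, ← real_inner_self_eq_norm_sq]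
  rw [sum_inner]
  apply Finset.sum_congr rfl
  intro S _
  rw [inner_sum, Finset.sum_eq_single S]
  · rw [real_inner_self_eq_norm_sq]
  · intro T _ hT
    exact sec_inner_of_ne hρ (Ne.symm hT) _ _
  · intro h
    exact absurd (Finset.mem_univ _) h

theorem sec_inner (hρ : IsOrth ρ) (S : Finset ι) (u v : V) :
    ⟪sec ρ S u, v⟫_ℝ = ⟪sec ρ S u, sec ρ S v⟫_ℝ := by
  conv_lhs => rw [← sum_sec (ρ := ρ) v]
  rw [inner_sum, Finset.sum_eq_single S]
  · intro T _ hT
    exact sec_inner_of_ne hρ (Ne.symm hT) _ _
  · intro h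
    exact absurd (Finset.mem_univ _) h

/-- Sectors of a vector of the sector `S`. -/
theorem sec_sec (S T : Finset ι) (v : V) :
    sec ρ S (sec ρ T v) = if S = T then sec ρ T v else 0 := by
  rw [sec_apply]
  simp_rw [flip_sec, smul_smul, ← chi_symmDiff]
  rw [← Finset.sum_smul]
  split_ifs with h
  · subst h
    simp only [symmDiff_self]
    have : ∀ c : ι → Bool, chi (⊥ : Finset ι) c = 1 := fun c => by simp [chi]
    simp only [this, Finset.sum_const, Finset.card_univ, Fintype.card_fun, Fintype.card_bool,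
      nsmul_eq_mul, mul_one, Nat.cast_pow, Nat.cast_ofNat]
    rw [smul_smul, inv_mul_cancel₀ (by positivity), one_smul]
  · have hne : (symmDiff S T).Nonempty := by
      rw [Finset.nonempty_iff_ne_empty]
      intro h0
      exact h (symmDiff_eq_bot.1 h0)
    obtain ⟨p, hp⟩ := hne
    have h0 : ∑ c : ι → Bool, chi (symmDiff S T) c = 0 := by
      have e : ∑ c : ι → Bool, chi (symmDiff S T) c =
          ∑ c : ι → Bool, chi (symmDiff S T) (xorC (fun i => decide (i = p)) c) :=
        (Equiv.sum_comp (xorEquiv (fun i => decide (i = p))) _).symm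
      have h2 : chi (symmDiff S T) (fun i => decide (i = p)) = -1 := by
        unfold chi
        rw [Finset.prod_eq_single p]
        · simp
        · intro q _ hq
          simp [hq]
        · intro h'
          exact absurd hp h'
      simp_rw [chi_xor, h2] at e
      rw [← Finset.mul_sum] at e
      linarith
    rw [h0, zero_smul, smul_zero]

end Vale.Agent.Thorp
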